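import Mathlib

/-!
# P162: the Thorp shuffle — definitions used in the statement
-/

namespace Vale.Agent.H16.Thorp

/-- One Thorp shuffle of a deck of `2 * m` cards with coins `c : Fin m → Bool`
(positions are numbered from `0`): the cards in positions `i` and `m + i` go to the positions
`2 * i` and `2 * i + 1`, in the order given by the coin `c i`.  `thorpFun m c p` is the new
position of the card that was in position `p`. -/
def thorpFun (m : ℕ) (c : Fin m → Bool) (p : Fin (2 * m)) : Fin (2 * m) :=
  if h : p.1 < m then
    ⟨2 * p.1 + (if c ⟨p.1, h⟩ = true then 1 else 0), by split <;> omega⟩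
  else
    ⟨2 * (p.1 - m) + (if c ⟨p.1 - m, by omega⟩ = true then 0 else 1), by
      have := p.2; split <;> omega⟩

/-- The law `q_n`, `n = 2 * m`, of one Thorp shuffle on the symmetric group of the positions:
the proportion of the `2 ^ m` coin sequences which produce the permutation `σ`. -/
noncomputable def q (m : ℕ) (σ : Equiv.Perm (Fin (2 * m))) : ℝ :=
  (Fintype.card {c : Fin m → Bool // ∀ p, σ p = thorpFun m c p} : ℝ) / 2 ^ m

/-- Convolution of two functions on a finite group: the law of `h * k` for independent
`h ∼ μ`, `k ∼ ν`. -/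
noncomputable def conv {G : Type*} [Group G] [Fintype G] (μ ν : G → ℝ) : G → ℝ :=
  fun g => ∑ h : G, μ h * ν (h⁻¹ * g)

/-- `t`-fold convolution power (the law after `t` independent shuffles). -/
noncomputable def convPow {G : Type*} [Group G] [Fintype G] [DecidableEq G] (μ : G → ℝ) :
    ℕ → G → ℝ
  | 0 => fun g => if g = 1 then 1 else 0
  | t + 1 => conv μ (convPow μ t)

/-- The uniform law. -/
noncomputable def unif (G : Type*) [Fintype G] : G → ℝ := fun _ => 1 / (Fintype.card G : ℝ)

/-- Total variation distance. -/
noncomputable def tv {G : Type*} [Fintype G] (μ ν : G → ℝ) : ℝ := (1 / 2) * ∑ g : G, |μ g - ν g|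

/-- The mixing time of the Thorp shuffle of `2 * m` cards, counted in single shuffles. -/
noncomputable def tmix (m : ℕ) : ℕ :=
  sInf {t : ℕ | tv (convPow (q m) t) (unif (Equiv.Perm (Fin (2 * m)))) ≤ 1 / 4}

end Vale.Agent.H16.Thorp
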