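import Vale.Agent.H16.Thorp.Rep
import Vale.Agent.H16.Thorp.Defs

/-! # P162, row R5: the Thorp shuffle in cube coordinates -/

namespace Vale.Agent.H16.Thorp

open Equiv

/-- Append a lowest bit. -/
def app : ∀ d, Cube d → Bool → Cube (d + 1)
  | 0, _, h => (h, ())
  | d + 1, x, h => (x.1, app d x.2 h)

/-- Remove the lowest bit: inverse of `app`. -/
def unapp : ∀ d, Cube (d + 1) → Cube d × Bool
  | 0, x => ((), x.1)
  | d + 1, x => ((x.1, (unapp d x.2).1), (unapp d x.2).2)

theorem app_unapp : ∀ d (x : Cube (d + 1)), app d (unapp d x).1 (unapp d x).2 = x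
  | 0, x => rfl
  | d + 1, x => by
    have h := app_unapp d x.2
    change (x.1, app d (unapp d x.2).1 (unapp d x.2).2) = x
    rw [h]
    rfl

theorem unapp_app : ∀ d (x : Cube d) (h : Bool), unapp d (app d x h) = (x, h)
  | 0, x, h => rfl
  | d + 1, x, h => by
    have h1 := unapp_app d x.2 h
    change ((x.1, (unapp d (app d x.2 h)).1), (unapp d (app d x.2 h)).2) = (x, h)
    rw [h1]
    rfl

/-- One Thorp shuffle in cube coordinates: `(h, i) ↦ i ++ [h xor c i]`. -/
def shuf (d : ℕ) (c : Cube d → Bool) : Perm (Cube (d + 1)) where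
  toFun x := app d x.2 (xor x.1 (c x.2))
  invFun y := (xor (unapp d y).2 (c (unapp d y).1), (unapp d y).1)
  left_inv x := by
    rcases x with ⟨h, i⟩
    simp [unapp_app]
    rfl
  right_inv y := by
    have := app_unapp d y
    simp [this]

/-! ### averages over the group generated by the pairs of an involution -/

section Pav

variable {V : Type*} [NormedAddCommGroup V] [InnerProductSpace ℝ V]

/-- the permutations moving every point to itself or to its partner -/
def Kset {Z : Type*} [Fintype Z] [DecidableEq Z] (i : Perm Z) : Finset (Perm Z) :=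
  Finset.univ.filter fun g => ∀ x, g x = x ∨ g x = i x

noncomputable def Pav {Z : Type*} [Fintype Z] [DecidableEq Z] (i : Perm Z)
    (ρ : Perm Z →* (V →L[ℝ] V)) : V →L[ℝ] V :=
  (1 / ((Kset i).card : ℝ)) • ∑ g ∈ Kset i, ρ g

theorem mem_Kset {Z : Type*} [Fintype Z] [DecidableEq Z] {i g : Perm Z} :
    g ∈ Kset i ↔ ∀ x, g x = x ∨ g x = i x := by simp [Kset]

theorem Kset_conj {Z : Type*} [Fintype Z] [DecidableEq Z] {i i' h : Perm Z}
    (hi : h * i = i' * h) {g : Perm Z} (hg : g ∈ Kset i) : h * g * h⁻¹ ∈ Kset i' := by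
  rw [mem_Kset] at hg ⊢
  intro x
  have e : i' x = h (i (h⁻¹ x)) := by
    have := congrArg (fun f : Perm Z => f (h⁻¹ x)) hi
    simpa using this.symm
  rcases hg (h⁻¹ x) with h1 | h1
  · left
    change h (g (h⁻¹ x)) = x
    rw [h1]
    exact h.apply_symm_apply x
  · right
    rw [e]
    change h (g (h⁻¹ x)) = h (i (h⁻¹ x))
    rw [h1]

theorem pav_conj {Z : Type*} [Fintype Z] [DecidableEq Z] {i i' h : Perm Z}
    (hi : h * i = i' * h) (ρ : Perm Z →* (V →L[ℝ] V)) :
    ρ h * Pav i ρ = Pav i' ρ * ρ h := by
  have hi' : h⁻¹ * i' = i * h⁻¹ := by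
    rw [inv_mul_eq_iff_eq_mul, ← mul_assoc, eq_mul_inv_iff_mul_eq, hi]
  have hcard : (Kset i).card = (Kset i').card := by
    refine Finset.card_nbij' (fun g => h * g * h⁻¹) (fun g => h⁻¹ * g * h) ?_ ?_ ?_ ?_
    · intro g hg
      exact Kset_conj hi hg
    · intro g hg
      have := Kset_conj hi' hg
      simpa using this
    · intro g _
      simp [mul_assoc]
    · intro g _
      simp [mul_assoc]
  unfold Pav
  rw [hcard, mul_smul_comm, smul_mul_assoc]
  congr 1
  rw [Finset.mul_sum, Finset.sum_mul]
  refine Finset.sum_nbij' (fun g => h * g * h⁻¹) (fun g => h⁻¹ * g * h) ?_ ?_ ?_ ?_ ?_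
  · intro g hg
    exact Kset_conj hi hg
  · intro g hg
    have := Kset_conj hi' hg
    simpa using this
  · intro g _
    simp [mul_assoc]
  · intro g _
    simp [mul_assoc]
  · intro g _
    rw [← map_mul, ← map_mul]
    simp [mul_assoc]

/-- the flip of the top bit -/
def topflip (Y : Type*) : Perm (Bool × Y) := topSwap fun _ => true

theorem topSwap_apply {Y : Type*} (s : Y → Bool) (x : Bool × Y) :
    topSwap s x = (xor x.1 (s x.2), x.2) := rfl

theorem pav_topflip {Y : Type*} [Fintype Y] [DecidableEq Y]
    (ρ : Perm (Bool × Y) →* (V →L[ℝ] V)) : Pav (topflip Y) ρ = Ptop ρ := by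
  have hmem : ∀ s : Y → Bool, topSwap s ∈ Kset (topflip Y) := by
    intro s
    rw [mem_Kset]
    rintro ⟨a, y⟩
    rw [topflip, topSwap_apply, topSwap_apply]
    cases s y <;> simp
  have hinj : Function.Injective (topSwap : (Y → Bool) → Perm (Bool × Y)) := by
    intro s s' h
    funext y
    have := congrArg (fun f : Perm (Bool × Y) => (f (false, y)).1) h
    simpa [topSwap_apply] using this
  have hsurj : ∀ g ∈ Kset (topflip Y), ∃ s : Y → Bool, topSwap s = g := by
    intro g hg
    rw [mem_Kset] at hg
    have h2 : ∀ x : Bool × Y, (g x).2 = x.2 := by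
      intro x
      rcases hg x with h | h
      · rw [h]
      · rw [h, topflip, topSwap_apply]
    refine ⟨fun y => (g (false, y)).1, ?_⟩
    ext x
    · rcases x with ⟨a, y⟩
      rw [topSwap_apply]
      cases a
      · simp
      · have hne : g (true, y) ≠ g (false, y) := fun h => by
          have := g.injective h
          simp at this
        have h3 : (g (true, y)).2 = (g (false, y)).2 := by rw [h2, h2]
        have h4 : (g (true, y)).1 ≠ (g (false, y)).1 := fun h => hne (Prod.ext h h3)
        revert h4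
        cases (g (true, y)).1 <;> cases (g (false, y)).1 <;> simp
    · rw [h2, topSwap_apply]
  have himg : Kset (topflip Y) = Finset.univ.image (topSwap : (Y → Bool) → Perm (Bool × Y)) := by
    ext g
    rw [Finset.mem_image]
    constructor
    · intro hg
      obtain ⟨s, hs⟩ := hsurj g hg
      exact ⟨s, Finset.mem_univ _, hs⟩
    · rintro ⟨s, _, rfl⟩
      exact hmem s
  unfold Pav Ptop
  rw [himg, Finset.sum_image fun a _ b _ h => hinj h, Finset.card_image_of_injective _ hinj,
    Finset.card_univ, Fintype.card_fun, Fintype.card_bool]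
  push_cast
  rfl

/-- a permutation acting on both halves -/
def liftP {Y : Type*} (g : Perm Y) : Perm (Bool × Y) where
  toFun x := (x.1, g x.2)
  invFun x := (x.1, g⁻¹ x.2)
  left_inv := by rintro ⟨a, y⟩; simp
  right_inv := by rintro ⟨a, y⟩; simp

theorem liftP_apply {Y : Type*} (g : Perm Y) (x : Bool × Y) : liftP g x = (x.1, g x.2) := rfl

theorem half_apply {Y : Type*} [DecidableEq Y] (b : Bool) (g : Perm Y) (x : Bool × Y) :
    half b g x = if x.1 = b then (x.1, g x.2) else x := rfl

theorem halves_apply {Y : Type*} [DecidableEq Y] (g k : Perm Y) (x : Bool × Y) :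
    (half false g * half true k) x = (x.1, if x.1 then k x.2 else g x.2) := by
  rcases x with ⟨a, y⟩
  rw [Perm.mul_apply, half_apply, half_apply]
  cases a <;> simp

theorem half_commute {Y : Type*} [DecidableEq Y] (g k : Perm Y) :
    half false g * half true k = half true k * half false g := by
  ext ⟨a, y⟩ <;> cases a <;> simp [half_apply]

theorem pav_lift {Y : Type*} [Fintype Y] [DecidableEq Y] (i : Perm Y)
    (ρ : Perm (Bool × Y) →* (V →L[ℝ] V)) :
    Pav (liftP i) ρ = Pav i (ρ.comp (half false)) * Pav i (ρ.comp (half true)) := by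
  set F : Perm Y × Perm Y → Perm (Bool × Y) := fun p => half false p.1 * half true p.2 with hF
  have hinj : Function.Injective F := by
    rintro ⟨g, k⟩ ⟨g', k'⟩ h
    have h1 : ∀ x, F (g, k) x = F (g', k') x := fun x => by rw [h]
    have hg : g = g' := by
      ext y
      have := h1 (false, y)
      simp only [hF, halves_apply] at this
      simpa using this
    have hk : k = k' := by
      ext y
      have := h1 (true, y)
      simp only [hF, halves_apply] at this
      simpa using this
    rw [hg, hk]
  have himg : Kset (liftP i) = ((Kset i) ×ˢ (Kset i)).image F := by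
    ext g
    rw [Finset.mem_image, mem_Kset]
    constructor
    · intro hg
      have h1 : ∀ x : Bool × Y, (g x).1 = x.1 := by
        intro x
        rcases hg x with h | h
        · rw [h]
        · rw [h, liftP_apply]
      have h1' : ∀ x : Bool × Y, (g⁻¹ x).1 = x.1 := by
        intro x
        have := h1 (g⁻¹ x)
        rw [show g (g⁻¹ x) = x from g.apply_symm_apply x] at this
        exact this.symm
      let gb : Bool → Perm Y := fun b =>
        { toFun := fun y => (g (b, y)).2
          invFun := fun y => (g⁻¹ (b, y)).2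
          left_inv := fun y => by
            have : (b, (g (b, y)).2) = g (b, y) := Prod.ext (h1 (b, y)).symm rfl
            change (g⁻¹ (b, (g (b, y)).2)).2 = y
            rw [this]
            exact congrArg Prod.snd (g.symm_apply_apply (b, y))
          right_inv := fun y => by
            have : (b, (g⁻¹ (b, y)).2) = g⁻¹ (b, y) := Prod.ext (h1' (b, y)).symm rfl
            change (g (b, (g⁻¹ (b, y)).2)).2 = y
            rw [this]
            exact congrArg Prod.snd (g.apply_symm_apply (b, y)) }
      refine ⟨(gb false, gb true), ?_, ?_⟩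
      · rw [Finset.mem_product, mem_Kset, mem_Kset]
        constructor
        · intro y
          rcases hg (false, y) with h | h
          · left
            change (g (false, y)).2 = y
            rw [h]
          · right
            change (g (false, y)).2 = i y
            rw [h, liftP_apply]
        · intro y
          rcases hg (true, y) with h | h
          · left
            change (g (true, y)).2 = y
            rw [h]
          · right
            change (g (true, y)).2 = i y
            rw [h, liftP_apply]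
      · ext x
        · rcases x with ⟨a, y⟩
          rw [h1]
          simp only [hF, halves_apply]
        · rcases x with ⟨a, y⟩
          simp only [hF, halves_apply]
          cases a
          · rfl
          · rfl
    · rintro ⟨⟨g1, g2⟩, hp, rfl⟩ x
      rw [Finset.mem_product, mem_Kset, mem_Kset] at hp
      rcases x with ⟨a, y⟩
      simp only [hF, halves_apply, liftP_apply]
      cases a
      · rcases hp.1 y with h | h
        · left; simpa using h
        · right; simpa using h
      · rcases hp.2 y with h | h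
        · left; simpa using h
        · right; simpa using h
  unfold Pav
  rw [himg, Finset.sum_image fun a _ b _ h => hinj h, Finset.card_image_of_injective _ hinj,
    Finset.card_product, Finset.sum_product, smul_mul_smul_comm, Finset.sum_mul_sum]
  congr 1
  · push_cast
    rw [div_mul_div_comm, one_mul]
  · refine Finset.sum_congr rfl fun a _ => Finset.sum_congr rfl fun b _ => ?_
    simp [hF, map_mul]

end Pav

/-! ### flips of the bits of the cube -/

/-- the flip of the top bit -/
def topC (d : ℕ) : Perm (Cube (d + 1)) := topflip (Cube d)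

/-- a permutation acting on both halves -/
def liftC {d : ℕ} (g : Perm (Cube d)) : Perm (Cube (d + 1)) := liftP g

/-- the swaps in the top direction -/
def swapC {d : ℕ} (c : Cube d → Bool) : Perm (Cube (d + 1)) := topSwap c

/-- add a top bit -/
def consC {d : ℕ} (b : Bool) (y : Cube d) : Cube (d + 1) := (b, y)

theorem exists_consC {d : ℕ} (x : Cube (d + 1)) : ∃ b y, x = consC b y := ⟨x.1, x.2, rfl⟩

theorem topC_consC {d : ℕ} (b : Bool) (y : Cube d) : topC d (consC b y) = consC (!b) y := by
  cases b <;> rfl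

theorem liftC_consC {d : ℕ} (g : Perm (Cube d)) (b : Bool) (y : Cube d) :
    liftC g (consC b y) = consC b (g y) := rfl

theorem app_consC {d : ℕ} (b : Bool) (y : Cube d) (h : Bool) :
    app (d + 1) (consC b y) h = consC b (app d y h) := rfl

theorem app_zero (y : Cube 0) (h : Bool) : app 0 y h = consC h y := rfl

/-- flip bit `j` (`j = 0` is the lowest bit, `j = d` the top bit) of `Cube (d + 1)` -/
def fl : ∀ d : ℕ, ℕ → Perm (Cube (d + 1))
  | 0, _ => topC 0
  | d + 1, j => if j = d + 1 then topC (d + 1) else liftC (fl d j)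

theorem fl_top (d : ℕ) : fl d d = topC d := by
  cases d
  · rfl
  · rw [fl, if_pos rfl]

theorem fl_lift {d j : ℕ} (h : j ≠ d + 1) : fl (d + 1) j = liftC (fl d j) := by
  rw [fl, if_neg h]

theorem app_fl : ∀ (e j : ℕ), j ≤ e → ∀ (y : Cube (e + 1)) (h : Bool),
    app (e + 1) (fl e j y) h = fl (e + 1) (j + 1) (app (e + 1) y h)
  | 0, j, hj, y, h => by
    obtain rfl : j = 0 := by omega
    obtain ⟨b, y', rfl⟩ := exists_consC y
    rw [fl_top, fl_top, topC_consC, app_consC, app_consC, topC_consC]
  | e + 1, j, hj, y, h => by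
    obtain ⟨b, y', rfl⟩ := exists_consC y
    rcases Nat.lt_or_ge j (e + 1) with hlt | hge
    · rw [fl_lift (by omega : j ≠ e + 1), fl_lift (by omega : j + 1 ≠ e + 1 + 1), liftC_consC,
        app_consC, app_consC, liftC_consC, app_fl e j (by omega) y' h]
    · obtain rfl : j = e + 1 := by omega
      rw [fl_top, fl_top, topC_consC, app_consC, app_consC, topC_consC]

theorem app_not : ∀ (d : ℕ) (i : Cube d) (h : Bool), app d i (!h) = fl d 0 (app d i h)
  | 0, i, h => by
    rw [fl_top, app_zero, app_zero, topC_consC]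
  | d + 1, i, h => by
    obtain ⟨b, y, rfl⟩ := exists_consC i
    rw [fl_lift (by omega), app_consC, app_consC, liftC_consC, app_not d y h]

/-- rotation of the bits -/
def rot (d : ℕ) : Perm (Cube (d + 1)) := shuf d fun _ => false

theorem rot_apply (d : ℕ) (b : Bool) (y : Cube d) : rot d (consC b y) = app d y b := by
  change app d y (xor b false) = app d y b
  rw [Bool.xor_false]

theorem rot_fl (d j : ℕ) (hj : j < d) : rot d * fl d j = fl d (j + 1) * rot d := by
  obtain ⟨e, rfl⟩ : ∃ e, d = e + 1 := ⟨d - 1, by omega⟩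
  refine Equiv.ext fun x => ?_
  obtain ⟨b, y, rfl⟩ := exists_consC x
  rw [Perm.mul_apply, Perm.mul_apply, fl_lift (by omega), liftC_consC, rot_apply, rot_apply]
  exact app_fl e j (by omega) y b

theorem rot_fl_top (d : ℕ) : rot d * fl d d = fl d 0 * rot d := by
  refine Equiv.ext fun x => ?_
  obtain ⟨b, y, rfl⟩ := exists_consC x
  rw [Perm.mul_apply, Perm.mul_apply, fl_top, topC_consC, rot_apply, rot_apply]
  exact app_not d y b

theorem shuf_eq (d : ℕ) (c : Cube d → Bool) : shuf d c = rot d * swapC c := by
  refine Equiv.ext fun x => ?_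
  obtain ⟨b, y, rfl⟩ := exists_consC x
  have h : swapC c (consC b y) = consC (xor b (c y)) y := rfl
  rw [Perm.mul_apply, h, rot_apply]
  rfl

section Prod

variable {M : Type*} [Monoid M]

/-- ordered product `A 0 * A 1 * ... * A (n - 1)` -/
def prodN (A : ℕ → M) : ℕ → M
  | 0 => 1
  | n + 1 => prodN A n * A n

theorem prodN_congr {A B : ℕ → M} {n : ℕ} (h : ∀ j < n, A j = B j) : prodN A n = prodN B n := by
  induction n with
  | zero => rfl
  | succ n ih =>
    rw [prodN, prodN, ih fun j hj => h j (by omega), h n (by omega)]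

theorem commute_prodN {A : ℕ → M} {x : M} (h : ∀ j, Commute (A j) x) (n : ℕ) :
    Commute (prodN A n) x := by
  induction n with
  | zero => exact Commute.one_left x
  | succ n ih => exact ih.mul_left (h n)

theorem prodN_mul {A B : ℕ → M} (h : ∀ i j, Commute (A i) (B j)) (n : ℕ) :
    prodN A n * prodN B n = prodN (fun j => A j * B j) n := by
  induction n with
  | zero => simp [prodN]
  | succ n ih =>
    rw [prodN, prodN, prodN, ← ih]
    have h1 : Commute (A n) (prodN B n) :=
      (commute_prodN (fun j => (h n j).symm) n).symm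
    rw [mul_assoc, ← mul_assoc (A n), h1.eq, mul_assoc (prodN B n), ← mul_assoc]

end Prod

section Main

variable {V : Type*} [NormedAddCommGroup V] [InnerProductSpace ℝ V]

theorem pav_commute {Y : Type*} [Fintype Y] [DecidableEq Y] (i i' : Perm Y)
    (ρ : Perm (Bool × Y) →* (V →L[ℝ] V)) :
    Commute (Pav i (ρ.comp (half false))) (Pav i' (ρ.comp (half true))) := by
  unfold Pav
  refine Commute.smul_left (Commute.smul_right ?_ _) _
  refine Commute.sum_left _ _ _ fun g _ => Commute.sum_right _ _ _ fun k _ => ?_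
  change ρ (half false g) * ρ (half true k) = ρ (half true k) * ρ (half false g)
  rw [← map_mul, ← map_mul, half_commute]

/-- `half` with the type of the cube -/
def halfC (d : ℕ) (b : Bool) : Perm (Cube d) →* Perm (Cube (d + 1)) := half (Y := Cube d) b

/-- `Ptop` with the type of the cube -/
noncomputable def PtopC (d : ℕ) (ρ : Perm (Cube (d + 1)) →* (V →L[ℝ] V)) : V →L[ℝ] V :=
  Ptop (Y := Cube d) ρ

theorem pav_topC (d : ℕ) (ρ : Perm (Cube (d + 1)) →* (V →L[ℝ] V)) :
    Pav (topC d) ρ = PtopC d ρ := pav_topflip (Y := Cube d) ρ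

theorem pav_liftC {d : ℕ} (i : Perm (Cube d)) (ρ : Perm (Cube (d + 1)) →* (V →L[ℝ] V)) :
    Pav (liftC i) ρ = Pav i (ρ.comp (halfC d false)) * Pav i (ρ.comp (halfC d true)) :=
  pav_lift (Y := Cube d) i ρ

theorem pav_commuteC {d : ℕ} (i i' : Perm (Cube d)) (ρ : Perm (Cube (d + 1)) →* (V →L[ℝ] V)) :
    Commute (Pav i (ρ.comp (halfC d false))) (Pav i' (ρ.comp (halfC d true))) :=
  pav_commute (Y := Cube d) i i' ρ

theorem theta_succ (d : ℕ) (ρ : Perm (Cube (d + 1)) →* (V →L[ℝ] V)) :
    Theta (d + 1) ρ = Theta d (ρ.comp (halfC d false)) * Theta d (ρ.comp (halfC d true)) *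
      PtopC d ρ := rfl

theorem theta_prod : ∀ (d : ℕ) (ρ : Perm (Cube (d + 1)) →* (V →L[ℝ] V)),
    Theta (d + 1) ρ = prodN (fun j => Pav (fl d j) ρ) (d + 1)
  | 0, ρ => by
    have h1 : ∀ ρ' : Perm (Cube 0) →* (V →L[ℝ] V), Theta 0 ρ' = 1 := fun _ => rfl
    rw [theta_succ, h1, h1, prodN, prodN, fl_top, pav_topC, one_mul]
  | d + 1, ρ => by
    rw [theta_succ, theta_prod d, theta_prod d, prodN_mul fun i j => pav_commuteC _ _ _]
    have h4 : prodN (fun j => Pav (fl (d + 1) j) ρ) (d + 1 + 1) =
      prodN (fun j => Pav (fl (d + 1) j) ρ) (d + 1) * Pav (fl (d + 1) (d + 1)) ρ := rfl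
    rw [h4, fl_top, pav_topC]
    congr 1
    refine prodN_congr fun j hj => ?_
    rw [fl_lift (by omega)]
    exact (pav_liftC (fl d j) ρ).symm

/-- One Thorp shuffle as an averaging operator. -/
noncomputable def Qop (d : ℕ) (ρ : Perm (Cube (d + 1)) →* (V →L[ℝ] V)) : V →L[ℝ] V :=
  (1 / (2 : ℝ) ^ (Fintype.card (Cube d))) • ∑ c : Cube d → Bool, ρ (shuf d c)

theorem qop_eq (d : ℕ) (ρ : Perm (Cube (d + 1)) →* (V →L[ℝ] V)) :
    Qop d ρ = Pav (fl d 0) ρ * ρ (rot d) := by
  rw [← pav_conj (rot_fl_top d) ρ, fl_top, pav_topC]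
  have h1 : PtopC d ρ = (1 / (2 : ℝ) ^ (Fintype.card (Cube d))) •
      ∑ c : Cube d → Bool, ρ (swapC c) := rfl
  rw [h1, Qop, mul_smul_comm, Finset.mul_sum]
  congr 1
  refine Finset.sum_congr rfl fun c _ => ?_
  rw [shuf_eq, map_mul]

theorem rot_pow_fl (d n : ℕ) (hn : n ≤ d) : (rot d) ^ n * fl d 0 = fl d n * (rot d) ^ n := by
  induction n with
  | zero => simp
  | succ n ih =>
    rw [pow_succ', mul_assoc, ih (by omega), ← mul_assoc, rot_fl d n (by omega), mul_assoc]

theorem qop_pow_aux (d : ℕ) (ρ : Perm (Cube (d + 1)) →* (V →L[ℝ] V)) (n : ℕ) (hn : n ≤ d + 1) :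
    (Qop d ρ) ^ n = prodN (fun j => Pav (fl d j) ρ) n * ρ ((rot d) ^ n) := by
  induction n with
  | zero => simp [prodN]
  | succ n ih =>
    rw [pow_succ, ih (by omega), qop_eq, mul_assoc, ← mul_assoc (ρ _),
      pav_conj (rot_pow_fl d n (by omega)) ρ, prodN, pow_succ, map_mul]
    simp only [mul_assoc]

/-- Row R5: `d + 1` consecutive shuffles are one pass composed with a fixed permutation. -/
theorem qop_pow (d : ℕ) (ρ : Perm (Cube (d + 1)) →* (V →L[ℝ] V)) :
    ∃ g : Perm (Cube (d + 1)), (Qop d ρ) ^ (d + 1) = Theta (d + 1) ρ * ρ g :=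
  ⟨(rot d) ^ (d + 1), by rw [qop_pow_aux d ρ (d + 1) le_rfl, theta_prod]⟩

end Main

end Vale.Agent.H16.Thorp
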