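import Vale.Agent.H16.Thorp.Bridge

/-! # P162, row R6: coordinates -/

namespace Vale.Agent.H16.Thorp

open Equiv

/-- The number with binary digits `x`. -/
def cval : ∀ d, Cube d → ℕ
  | 0, _ => 0
  | d + 1, x => (if x.1 = true then 2 ^ d else 0) + cval d x.2

theorem cval_lt : ∀ d (x : Cube d), cval d x < 2 ^ d
  | 0, _ => by simp [cval]
  | d + 1, x => by
      have h := cval_lt d x.2
      simp only [cval, pow_succ]
      split <;> omega

theorem cval_inj : ∀ d (x y : Cube d), cval d x = cval d y → x = y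
  | 0, _, _, _ => rfl
  | d + 1, x, y, h => by
      have hx := cval_lt d x.2
      have hy := cval_lt d y.2
      simp only [cval] at h
      have h1 : x.1 = y.1 := by
        cases hx1 : x.1 <;> cases hy1 : y.1 <;> simp [hx1, hy1] at h ⊢ <;> omega
      have h2 : cval d x.2 = cval d y.2 := by
        rw [h1] at h
        omega
      exact Prod.ext h1 (cval_inj d _ _ h2)

theorem cval_app : ∀ d (x : Cube d) (h : Bool),
    cval (d + 1) (app d x h) = 2 * cval d x + (if h = true then 1 else 0)
  | 0, _, h => by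
      cases h <;> simp [cval, app]
  | d + 1, x, h => by
      have ih := cval_app d x.2 h
      have h1 : cval (d + 2) (app (d + 1) x h) =
          (if x.1 = true then 2 ^ (d + 1) else 0) + cval (d + 1) (app d x.2 h) := rfl
      have h2 : cval (d + 1) x = (if x.1 = true then 2 ^ d else 0) + cval d x.2 := rfl
      rw [h1, h2, ih]
      have h3 : 2 ^ (d + 1) = 2 * 2 ^ d := by rw [pow_succ]; ring
      split <;> omega

/-- The cube as an initial segment. -/
noncomputable def cubeFin (d : ℕ) : Cube d ≃ Fin (2 ^ d) :=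
  Equiv.ofBijective (fun x => ⟨cval d x, cval_lt d x⟩) (by
    rw [Fintype.bijective_iff_injective_and_card]
    refine ⟨fun x y h => cval_inj d x y (by simpa using h), ?_⟩
    rw [card_cube, Fintype.card_fin])

theorem cubeFin_val (d : ℕ) (x : Cube d) : (cubeFin d x).1 = cval d x := rfl

/-- Row R6: cube coordinates for the deck of `2 * m = 2 ^ (d + 1)` cards. -/
theorem exists_coord' (d m : ℕ) (hm : 2 * m = 2 ^ (d + 1)) :
    ∃ (e : Fin (2 * m) ≃ Cube (d + 1)) (f : (Fin m → Bool) ≃ (Cube d → Bool)),
      ∀ c p, e (thorpFun m c p) = shuf d (f c) (e p) := by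
  have hm' : m = 2 ^ d := by
    rw [pow_succ] at hm; omega
  refine ⟨(finCongr hm).trans (cubeFin (d + 1)).symm,
    Equiv.arrowCongr ((finCongr hm').trans (cubeFin d).symm) (Equiv.refl Bool), ?_⟩
  intro c p
  set e := (finCongr hm).trans (cubeFin (d + 1)).symm with he
  have hval : ∀ p : Fin (2 * m), cval (d + 1) (e p) = p.1 := by
    intro p
    rw [← cubeFin_val, he]
    simp
  have hf : ∀ x : Cube d, (Equiv.arrowCongr ((finCongr hm').trans (cubeFin d).symm)
      (Equiv.refl Bool)) c x = c ⟨cval d x, lt_of_lt_of_eq (cval_lt d x) hm'.symm⟩ := by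
    intro x
    simp only [Equiv.arrowCongr_apply, Equiv.coe_refl, Function.comp, id_eq]
    congr 1
  apply cval_inj
  rw [hval]
  have hs : shuf d ((Equiv.arrowCongr ((finCongr hm').trans (cubeFin d).symm)
      (Equiv.refl Bool)) c) (e p) = app d (e p).2 (xor (e p).1 (((Equiv.arrowCongr
        ((finCongr hm').trans (cubeFin d).symm) (Equiv.refl Bool)) c) (e p).2)) := rfl
  rw [hs, cval_app, hf]
  have hp := hval p
  have hlt := cval_lt d (e p).2
  have hlt' : cval d (e p).2 < m := lt_of_lt_of_eq hlt hm'.symm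
  have hp2 : p.1 = (if (e p).1 = true then 2 ^ d else 0) + cval d (e p).2 := hp.symm
  by_cases h1 : (e p).1 = true
  · rw [if_pos h1] at hp2
    have hnot : ¬ p.1 < m := by omega
    have heq : (⟨p.1 - m, by have := p.2; omega⟩ : Fin m) =
        ⟨cval d (e p).2, hlt'⟩ := by
      apply Fin.ext
      simp only
      omega
    unfold thorpFun
    rw [dif_neg hnot]
    simp only [heq, h1]
    cases c ⟨cval d (e p).2, hlt'⟩ <;> simp <;> omega
  · have h1' : (e p).1 = false := by simpa using h1
    rw [if_neg h1] at hp2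
    have hpos : p.1 < m := by omega
    have heq : (⟨p.1, hpos⟩ : Fin m) =
        ⟨cval d (e p).2, hlt'⟩ := by
      apply Fin.ext
      simp only
      omega
    unfold thorpFun
    rw [dif_pos hpos]
    simp only [heq, h1']
    cases c ⟨cval d (e p).2, hlt'⟩ <;> simp <;> omega

/-- Row R6: cube coordinates for the deck of `2 * m = 2 ^ (d + 1)` cards. -/
theorem exists_coord (d m : ℕ) (hm : 2 * m = 2 ^ (d + 1)) :
    ∃ (e : Fin (2 * m) ≃ Cube (d + 1)) (f : (Fin m → Bool) ≃ (Cube d → Bool)),
      ∀ c p, e (thorpFun m c p) = shuf d (f c) (e p) :=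
  exists_coord' d m hm

end Vale.Agent.H16.Thorp
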