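import Mathlib

/-!
# P162: orthogonal representations of symmetric groups, the operator `Lam`, the pass operator
-/

namespace Vale.Agent.H16.Thorp

open Equiv

section Lam

variable {X : Type*} [Fintype X] [DecidableEq X]
variable {V : Type*} [NormedAddCommGroup V] [InnerProductSpace ℝ V]

/-- `Lam = (1/N) ∑_{unordered pairs} (1 - τ_{pq})`, written as a sum over ordered pairs. -/
noncomputable def Lam (ρ : Perm X →* (V →L[ℝ] V)) : V →L[ℝ] V :=
  (1 / (2 * (Fintype.card X : ℝ))) • ∑ p : X, ∑ q : X, (1 - ρ (swap p q))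

end Lam

/-- The cube `{0,1}^d`, top bit first. -/
def Cube : ℕ → Type
  | 0 => Unit
  | d + 1 => Bool × Cube d

instance instFintypeCube : ∀ d, Fintype (Cube d)
  | 0 => inferInstanceAs (Fintype Unit)
  | d + 1 => @instFintypeProd Bool (Cube d) _ (instFintypeCube d)

instance instDecidableEqCube : ∀ d, DecidableEq (Cube d)
  | 0 => inferInstanceAs (DecidableEq Unit)
  | d + 1 => @instDecidableEqProd Bool (Cube d) _ (instDecidableEqCube d)

instance instNonemptyCube : ∀ d, Nonempty (Cube d)
  | 0 => ⟨()⟩
  | d + 1 => ⟨(false, (instNonemptyCube d).some)⟩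

theorem card_cube : ∀ d, Fintype.card (Cube d) = 2 ^ d
  | 0 => rfl
  | d + 1 => by
      have h : Fintype.card (Cube (d + 1)) = Fintype.card (Bool × Cube d) := rfl
      rw [h, Fintype.card_prod, card_cube d, Fintype.card_bool, pow_succ]; ring

/-- A permutation of `Y` acting on the copy `{b} × Y` of `Y` inside `Bool × Y`. -/
def half {Y : Type*} [DecidableEq Y] (b : Bool) : Perm Y →* Perm (Bool × Y) where
  toFun g :=
    { toFun := fun x => if x.1 = b then (x.1, g x.2) else x
      invFun := fun x => if x.1 = b then (x.1, g⁻¹ x.2) else x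
      left_inv := by
        rintro ⟨a, y⟩
        by_cases h : a = b <;> simp [h]
      right_inv := by
        rintro ⟨a, y⟩
        by_cases h : a = b <;> simp [h] }
  map_one' := by
    ext ⟨a, y⟩ <;> by_cases h : a = b <;> simp [h]
  map_mul' g k := by
    ext ⟨a, y⟩ <;> by_cases h : a = b <;> simp [h]

/-- Flip the top bit of `(b, y)` iff `s y`. -/
def topSwap {Y : Type*} (s : Y → Bool) : Perm (Bool × Y) where
  toFun x := (xor x.1 (s x.2), x.2)
  invFun x := (xor x.1 (s x.2), x.2)
  left_inv := by rintro ⟨a, y⟩; simp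
  right_inv := by rintro ⟨a, y⟩; simp

section Theta

variable {V : Type*} [NormedAddCommGroup V] [InnerProductSpace ℝ V]

/-- The average over all swaps in the top direction (an orthogonal projection). -/
noncomputable def Ptop {Y : Type*} [Fintype Y] [DecidableEq Y]
    (ρ : Perm (Bool × Y) →* (V →L[ℝ] V)) : V →L[ℝ] V :=
  (1 / (2 : ℝ) ^ (Fintype.card Y)) • ∑ s : Y → Bool, ρ (topSwap s)

/-- One pass (`d` consecutive layers, top direction first). -/
noncomputable def Theta : ∀ d, (Perm (Cube d) →* (V →L[ℝ] V)) → (V →L[ℝ] V)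
  | 0, _ => 1
  | d + 1, ρ =>
      Theta d (ρ.comp (half (Y := Cube d) false)) * Theta d (ρ.comp (half (Y := Cube d) true)) *
        Ptop (Y := Cube d) ρ

end Theta

end Vale.Agent.H16.Thorp
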