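import Mathlib
import Vale.Agent.H16.Thorp.Rep

/-! # P162, row R3: exponentials of symmetric operators; `Lam` is symmetric, central, positive -/

namespace Vale.Agent.H16.Thorp

open Equiv
open scoped RealInnerProductSpace

variable {V : Type*} [NormedAddCommGroup V] [InnerProductSpace ℝ V] [CompleteSpace V]

/-- symmetric operator -/
def Symm (T : V →L[ℝ] V) : Prop := ∀ x y, ⟪T x, y⟫ = ⟪x, T y⟫

omit [CompleteSpace V] in
theorem Symm.pow {T : V →L[ℝ] V} (hT : Symm T) (k : ℕ) : Symm (T ^ k) := by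
  induction k with
  | zero => intro x y; simp
  | succ k ih =>
      intro x y
      have h1 : (T ^ (k + 1)) x = (T ^ k) (T x) := by
        rw [pow_succ]; rfl
      have h2 : (T ^ (k + 1)) y = T ((T ^ k) y) := by
        rw [pow_succ']; rfl
      rw [h1, h2, ih, hT]

omit [CompleteSpace V] in
theorem Symm.smul {T : V →L[ℝ] V} (hT : Symm T) (c : ℝ) : Symm (c • T) := by
  intro x y
  simp only [_root_.smul_apply, inner_smul_left, inner_smul_right]
  rw [hT x y]
  simp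

/-- the exponential series applied to a vector -/
theorem exp_apply_hasSum (T : V →L[ℝ] V) (v : V) :
    HasSum (fun k : ℕ => (1 / (k.factorial : ℝ)) • ((T ^ k) v)) (NormedSpace.exp T v) := by
  have h := NormedSpace.exp_series_hasSum_exp' (𝕂 := ℝ) T
  have h2 := h.mapL (ContinuousLinearMap.apply ℝ V v)
  simpa [one_div] using h2

/-- the series of `⟪u, exp T v⟫` -/
theorem exp_inner_hasSum (T : V →L[ℝ] V) (u v : V) :
    HasSum (fun k : ℕ => (1 / (k.factorial : ℝ)) * ⟪u, (T ^ k) v⟫) ⟪u, NormedSpace.exp T v⟫ := by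
  have h := (exp_apply_hasSum T v).mapL (innerSL ℝ u)
  simpa [inner_smul_right] using h

theorem exp_symm {T : V →L[ℝ] V} (hT : Symm T) : Symm (NormedSpace.exp T) := by
  intro x y
  have h1 := exp_inner_hasSum T y x
  have h2 := exp_inner_hasSum T x y
  have h3 : (fun k : ℕ => (1 / (k.factorial : ℝ)) * ⟪y, (T ^ k) x⟫) =
      fun k : ℕ => (1 / (k.factorial : ℝ)) * ⟪x, (T ^ k) y⟫ := by
    funext k
    rw [← hT.pow k x y, real_inner_comm]
  rw [h3] at h1
  rw [real_inner_comm]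
  exact h1.unique h2

/-- invariant subspaces -/
theorem exp_mem {T : V →L[ℝ] V} (U : Submodule ℝ V) [FiniteDimensional ℝ U]
    (hU : ∀ u ∈ U, T u ∈ U) {u : V} (hu : u ∈ U) : NormedSpace.exp T u ∈ U := by
  have h := exp_apply_hasSum T u
  have hc : IsClosed (U : Set V) := U.closed_of_finiteDimensional
  have hp : ∀ k : ℕ, (T ^ k) u ∈ U := by
    intro k
    induction k with
    | zero => simpa using hu
    | succ k ih =>
        rw [pow_succ']
        exact hU _ ih
  refine hc.mem_of_tendsto h.tendsto_sum_nat (Filter.Eventually.of_forall fun n => ?_)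
  exact U.sum_mem fun k _ => U.smul_mem _ (hp k)

theorem exp_add_c {x y : V →L[ℝ] V} (h : Commute x y) :
    NormedSpace.exp (x + y) = NormedSpace.exp x * NormedSpace.exp y := by
  let _ : NormedAlgebra ℚ (V →L[ℝ] V) := NormedAlgebra.restrictScalars ℚ ℝ (V →L[ℝ] V)
  exact NormedSpace.exp_add_of_commute h

theorem exp_half (T : V →L[ℝ] V) :
    NormedSpace.exp T = NormedSpace.exp ((1 / 2 : ℝ) • T) * NormedSpace.exp ((1 / 2 : ℝ) • T) := by
  rw [← exp_add_c (Commute.refl _), ← add_smul]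
  norm_num

theorem exp_inner_eq_norm {T : V →L[ℝ] V} (hT : Symm T) (u : V) :
    ⟪u, NormedSpace.exp T u⟫ = ‖NormedSpace.exp ((1 / 2 : ℝ) • T) u‖ ^ 2 := by
  conv_lhs => rw [exp_half T]
  have h := exp_symm (hT.smul (1 / 2 : ℝ)) u (NormedSpace.exp ((1 / 2 : ℝ) • T) u)
  rw [← real_inner_self_eq_norm_sq, h]
  rfl

theorem exp_inner_ge {T : V →L[ℝ] V} (hT : Symm T) (U : Submodule ℝ V)
    (hU : ∀ u ∈ U, T u ∈ U) (hpos : ∀ u ∈ U, 0 ≤ ⟪u, T u⟫) (κ : ℝ) (hκ : 0 ≤ κ)
    {u : V} (hu : u ∈ U) :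
    ‖u‖ ^ 2 + κ * ⟪u, T u⟫ ≤ ⟪u, NormedSpace.exp (κ • T) u⟫ := by
  have hp : ∀ k : ℕ, (T ^ k) u ∈ U := by
    intro k
    induction k with
    | zero => simpa using hu
    | succ k ih =>
        rw [pow_succ']
        exact hU _ ih
  have hk : ∀ k : ℕ, 0 ≤ ⟪u, (T ^ k) u⟫ := by
    intro k
    obtain ⟨j, rfl | rfl⟩ := Nat.even_or_odd' k
    · have h1 : (T ^ (2 * j)) u = (T ^ j) ((T ^ j) u) := by
        rw [two_mul, pow_add]; rfl
      rw [h1, ← hT.pow j]
      exact real_inner_self_nonneg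
    · have h1 : (T ^ (2 * j + 1)) u = (T ^ j) (T ((T ^ j) u)) := by
        have : 2 * j + 1 = j + (1 + j) := by ring
        rw [this, pow_add, pow_add, pow_one]; rfl
      rw [h1, ← hT.pow j]
      exact hpos _ (hp j)
  have h := exp_inner_hasSum (κ • T) u u
  have hterm : ∀ k : ℕ, 0 ≤ (1 / (k.factorial : ℝ)) * ⟪u, ((κ • T) ^ k) u⟫ := by
    intro k
    rw [smul_pow]
    simp only [_root_.smul_apply, inner_smul_right]
    have := hk k
    positivity
  have h2 := sum_le_hasSum (Finset.range 2) (fun k _ => hterm k) h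
  have h3 : ∑ k ∈ Finset.range 2, (1 / (k.factorial : ℝ)) * ⟪u, ((κ • T) ^ k) u⟫ =
      ‖u‖ ^ 2 + κ * ⟪u, T u⟫ := by
    simp [Finset.sum_range_succ, inner_smul_right]
  rw [h3] at h2
  exact h2

omit [CompleteSpace V] in
theorem exp_smul_one (c : ℝ) :
    NormedSpace.exp (c • (1 : V →L[ℝ] V)) = Real.exp c • (1 : V →L[ℝ] V) := by
  have h := NormedSpace.algebraMap_exp_comm (𝕂 := ℝ) (𝔸 := V →L[ℝ] V) c
  rw [Algebra.algebraMap_eq_smul_one, Algebra.algebraMap_eq_smul_one,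
    ← Real.exp_eq_exp_ℝ] at h
  exact h.symm

theorem exp_inner_le {T : V →L[ℝ] V} (hT : Symm T) (U : Submodule ℝ V) [FiniteDimensional ℝ U]
    (hU : ∀ u ∈ U, T u ∈ U) (a : ℝ) (ha : ∀ u ∈ U, a * ‖u‖ ^ 2 ≤ ⟪u, T u⟫) (t : ℝ) (ht : 0 ≤ t)
    {u : V} (hu : u ∈ U) :
    ⟪u, NormedSpace.exp (-(t • T)) u⟫ ≤ Real.exp (-(t * a)) * ‖u‖ ^ 2 := by
  set T1 : V →L[ℝ] V := T - a • (1 : V →L[ℝ] V) with hT1def
  have hT1 : Symm T1 := by
    intro x y
    simp only [hT1def, _root_.sub_apply, _root_.smul_apply,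
      one_apply_eq_self, inner_sub_left, inner_sub_right, inner_smul_left,
      inner_smul_right]
    rw [hT x y]
    simp
  have hU1 : ∀ u ∈ U, T1 u ∈ U := by
    intro w hw
    simp only [hT1def, _root_.sub_apply, _root_.smul_apply,
      one_apply_eq_self]
    exact U.sub_mem (hU w hw) (U.smul_mem _ hw)
  have hpos : ∀ u ∈ U, 0 ≤ ⟪u, T1 u⟫ := by
    intro w hw
    simp only [hT1def, _root_.sub_apply, _root_.smul_apply,
      one_apply_eq_self, inner_sub_right, inner_smul_right,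
      real_inner_self_eq_norm_sq]
    linarith [ha w hw]
  have hfac : NormedSpace.exp (-(t • T)) = Real.exp (-(t * a)) • NormedSpace.exp (-(t • T1)) := by
    have h1 : -(t • T) = (-(t * a)) • (1 : V →L[ℝ] V) + -(t • T1) := by
      rw [hT1def, smul_sub, smul_smul, neg_smul]; abel
    have hc : Commute ((-(t * a)) • (1 : V →L[ℝ] V)) (-(t • T1)) :=
      (Commute.one_left _).smul_left _
    rw [h1, exp_add_c hc, exp_smul_one, smul_mul_assoc, one_mul]
  rw [hfac]
  simp only [_root_.smul_apply, inner_smul_right]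
  refine mul_le_mul_of_nonneg_left ?_ (Real.exp_pos _).le
  have hneg : Symm (-(t • T1)) := by
    have := hT1.smul (-t)
    rwa [neg_smul] at this
  rw [exp_inner_eq_norm hneg]
  set w := NormedSpace.exp ((1 / 2 : ℝ) • -(t • T1)) u with hw
  have hwU : w ∈ U := by
    refine exp_mem U ?_ hu
    intro x hx
    simp only [_root_.smul_apply, _root_.neg_apply]
    exact U.smul_mem _ (U.neg_mem (U.smul_mem _ (hU1 x hx)))
  have h4 := exp_inner_ge hT1 U hU1 hpos t ht hwU
  rw [exp_inner_eq_norm (hT1.smul t)] at h4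
  have h5 : NormedSpace.exp ((1 / 2 : ℝ) • (t • T1)) w = u := by
    rw [hw]
    have h6 : NormedSpace.exp ((1 / 2 : ℝ) • (t • T1)) * NormedSpace.exp ((1 / 2 : ℝ) • -(t • T1)) =
        1 := by
      rw [← exp_add_c, smul_neg, add_neg_cancel, NormedSpace.exp_zero]
      rw [smul_neg]
      exact (Commute.refl _).neg_right
    calc NormedSpace.exp ((1 / 2 : ℝ) • (t • T1)) (NormedSpace.exp ((1 / 2 : ℝ) • -(t • T1)) u)
        = (NormedSpace.exp ((1 / 2 : ℝ) • (t • T1)) *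
            NormedSpace.exp ((1 / 2 : ℝ) • -(t • T1))) u := rfl
      _ = u := by rw [h6]; rfl
  rw [h5] at h4
  have h7 := hpos w hwU
  nlinarith [mul_nonneg ht h7]

set_option linter.unusedSectionVars false

section LamProps

variable {X : Type*} [Fintype X] [DecidableEq X]

omit [CompleteSpace V] [Fintype X] [DecidableEq X] in
theorem rho_inner (ρ : Perm X →* (V →L[ℝ] V)) (hρ : ∀ g v, ‖ρ g v‖ = ‖v‖) (g : Perm X)
    (u v : V) : ⟪ρ g u, v⟫ = ⟪u, ρ g⁻¹ v⟫ := by
  let L : V →ₗᵢ[ℝ] V := { toLinearMap := (ρ g : V →ₗ[ℝ] V), norm_map' := fun x => hρ g x }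
  have h1 : ρ g (ρ g⁻¹ v) = v := by
    have : ρ g * ρ g⁻¹ = 1 := by rw [← map_mul, mul_inv_cancel, map_one]
    calc ρ g (ρ g⁻¹ v) = (ρ g * ρ g⁻¹) v := rfl
      _ = v := by rw [this]; rfl
  have h2 := L.inner_map_map u (ρ g⁻¹ v)
  have h3 : L (ρ g⁻¹ v) = v := h1
  rw [h3] at h2
  exact h2

omit [CompleteSpace V] in
theorem lam_apply (ρ : Perm X →* (V →L[ℝ] V)) (v : V) :
    Lam ρ v = (1 / (2 * (Fintype.card X : ℝ))) • ∑ p : X, ∑ q : X, (v - ρ (swap p q) v) := by
  unfold Lam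
  simp

omit [CompleteSpace V] in
theorem lam_symm (ρ : Perm X →* (V →L[ℝ] V)) (hρ : ∀ g v, ‖ρ g v‖ = ‖v‖) : Symm (Lam ρ) := by
  intro x y
  rw [lam_apply, lam_apply, inner_smul_left, inner_smul_right]
  congr 1
  simp only [sum_inner, inner_sum]
  refine Finset.sum_congr rfl fun p _ => Finset.sum_congr rfl fun q _ => ?_
  rw [inner_sub_left, inner_sub_right, rho_inner ρ hρ, Equiv.swap_inv]

omit [CompleteSpace V] in
theorem lam_comm (ρ : Perm X →* (V →L[ℝ] V)) (g : Perm X) : Commute (Lam ρ) (ρ g) := by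
  unfold Lam
  refine Commute.smul_left ?_ _
  show (∑ p : X, ∑ q : X, (1 - ρ (swap p q))) * ρ g = ρ g * ∑ p : X, ∑ q : X, (1 - ρ (swap p q))
  simp only [Finset.sum_mul, Finset.mul_sum]
  rw [← Equiv.sum_comp g (fun p => ∑ q : X, (1 - ρ (swap p q)) * ρ g)]
  refine Finset.sum_congr rfl fun p _ => ?_
  rw [← Equiv.sum_comp g (fun q => (1 - ρ (swap (g p) q)) * ρ g)]
  refine Finset.sum_congr rfl fun q _ => ?_
  rw [sub_mul, mul_sub, one_mul, mul_one, ← map_mul, ← map_mul]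
  congr 2
  rw [Equiv.swap_apply_apply]
  group

omit [CompleteSpace V] in
theorem lam_nonneg (ρ : Perm X →* (V →L[ℝ] V)) (hρ : ∀ g v, ‖ρ g v‖ = ‖v‖) (v : V) :
    0 ≤ ⟪v, Lam ρ v⟫ := by
  rw [lam_apply, inner_smul_right]
  refine mul_nonneg (by positivity) ?_
  simp only [inner_sum]
  refine Finset.sum_nonneg fun p _ => Finset.sum_nonneg fun q _ => ?_
  rw [inner_sub_right, real_inner_self_eq_norm_sq]
  have h1 := real_inner_le_norm v (ρ (swap p q) v)
  rw [hρ] at h1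
  nlinarith

end LamProps

end Vale.Agent.H16.Thorp
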