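import Mathlib
import Vale.Agent.H16.Thorp.Rep

/-! # P162, row R2: spectral bound for `Lam` on subspaces without symmetric vectors -/

namespace Vale.Agent.H16.Thorp

open Equiv
open scoped RealInnerProductSpace

variable {V : Type*} [NormedAddCommGroup V] [InnerProductSpace ℝ V]
variable {X : Type*} [Fintype X] [DecidableEq X]

section specaux

theorem spec_rho_inner (ρ : Perm X →* (V →L[ℝ] V)) (hρ : ∀ g v, ‖ρ g v‖ = ‖v‖) (g : Perm X)
    (u v : V) : ⟪ρ g u, v⟫ = ⟪u, ρ g⁻¹ v⟫ := by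
  let L : V →ₗᵢ[ℝ] V := ⟨(ρ g).toLinearMap, fun v => hρ g v⟩
  have h1 : ρ g (ρ g⁻¹ v) = v := by
    have : (ρ g * ρ g⁻¹) v = v := by rw [← map_mul, mul_inv_cancel, map_one]; rfl
    exact this
  calc ⟪ρ g u, v⟫ = ⟪ρ g u, ρ g (ρ g⁻¹ v)⟫ := by rw [h1]
    _ = ⟪L u, L (ρ g⁻¹ v)⟫ := rfl
    _ = ⟪u, ρ g⁻¹ v⟫ := L.inner_map_map _ _

/-- the sum of all swaps (ordered pairs, with the diagonal) of points of `Y` -/
noncomputable def specT (ρ : Perm X →* (V →L[ℝ] V)) (Y : Finset X) : V →L[ℝ] V :=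
  ∑ p ∈ Y, ∑ q ∈ Y, ρ (swap p q)

theorem specT_apply (ρ : Perm X →* (V →L[ℝ] V)) (Y : Finset X) (v : V) :
    specT ρ Y v = ∑ p ∈ Y, ∑ q ∈ Y, ρ (swap p q) v := by
  simp [specT]

theorem spec_swap_inner (ρ : Perm X →* (V →L[ℝ] V)) (hρ : ∀ g v, ‖ρ g v‖ = ‖v‖) (p q : X)
    (u v : V) : ⟪ρ (swap p q) u, v⟫ = ⟪u, ρ (swap p q) v⟫ := by
  rw [spec_rho_inner ρ hρ, Equiv.swap_inv]

theorem specT_symm (ρ : Perm X →* (V →L[ℝ] V)) (hρ : ∀ g v, ‖ρ g v‖ = ‖v‖) (Y : Finset X)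
    (u v : V) : ⟪specT ρ Y u, v⟫ = ⟪u, specT ρ Y v⟫ := by
  rw [specT_apply, specT_apply, sum_inner, inner_sum]
  refine Finset.sum_congr rfl fun p _ => ?_
  rw [sum_inner, inner_sum]
  refine Finset.sum_congr rfl fun q _ => ?_
  exact spec_swap_inner ρ hρ p q u v

theorem spec_mul_apply (ρ : Perm X →* (V →L[ℝ] V)) (g h : Perm X) (v : V) :
    ρ g (ρ h v) = ρ (g * h) v := by rw [map_mul]; rfl

theorem specT_comm (ρ : Perm X →* (V →L[ℝ] V)) (Y : Finset X) (g : Perm X)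
    (hg : ∀ p ∈ Y, g p ∈ Y) (v : V) : specT ρ Y (ρ g v) = ρ g (specT ρ Y v) := by
  have himg : Y.image g = Y :=
    Finset.eq_of_subset_of_card_le (Finset.image_subset_iff.2 hg)
      (by rw [Finset.card_image_of_injective _ g.injective])
  have hre : ∀ f : X → V, ∑ p ∈ Y, f (g p) = ∑ p ∈ Y, f p := by
    intro f
    conv_rhs => rw [← himg]
    rw [Finset.sum_image (fun x _ y _ h => g.injective h)]
  rw [specT_apply, specT_apply, map_sum]
  rw [← hre (fun p => ∑ q ∈ Y, ρ (swap p q) (ρ g v))]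
  refine Finset.sum_congr rfl fun p _ => ?_
  rw [map_sum, ← hre (fun q => ρ (swap (g p) q) (ρ g v))]
  refine Finset.sum_congr rfl fun q _ => ?_
  rw [spec_mul_apply, spec_mul_apply, Equiv.mul_swap_eq_swap_mul]

theorem specT_le (ρ : Perm X →* (V →L[ℝ] V)) (hρ : ∀ g v, ‖ρ g v‖ = ‖v‖) (Y : Finset X) (v : V) :
    ⟪v, specT ρ Y v⟫ ≤ (Y.card : ℝ) ^ 2 * ‖v‖ ^ 2 := by
  rw [specT_apply, inner_sum]
  calc ∑ p ∈ Y, ⟪v, ∑ q ∈ Y, ρ (swap p q) v⟫ ≤ ∑ p ∈ Y, ∑ q ∈ Y, ‖v‖ ^ 2 := by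
        refine Finset.sum_le_sum fun p _ => ?_
        rw [inner_sum]
        refine Finset.sum_le_sum fun q _ => ?_
        calc ⟪v, ρ (swap p q) v⟫ ≤ ‖v‖ * ‖ρ (swap p q) v‖ := real_inner_le_norm _ _
          _ = ‖v‖ ^ 2 := by rw [hρ]; ring
    _ = (Y.card : ℝ) ^ 2 * ‖v‖ ^ 2 := by
        simp only [Finset.sum_const, nsmul_eq_mul]; ring

theorem spec_eig [FiniteDimensional ℝ V] (T : V →L[ℝ] V) (hT : ∀ u v, ⟪T u, v⟫ = ⟪u, T v⟫)
    (E : Submodule ℝ V) (hE : ∀ u ∈ E, T u ∈ E) (hne : ∃ v ∈ E, v ≠ 0) :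
    ∃ j : ℝ, (∃ v ∈ E, v ≠ 0 ∧ T v = j • v) ∧ ∀ v ∈ E, ⟪v, T v⟫ ≤ j * ‖v‖ ^ 2 := by
  let T' : E →ₗ[ℝ] E := T.toLinearMap.restrict hE
  have hT'a : ∀ x : E, ((T' x : E) : V) = T (x : V) := fun x => rfl
  have hsym : T'.IsSymmetric := by
    intro x y
    rw [Submodule.coe_inner, Submodule.coe_inner, hT'a, hT'a]
    exact hT _ _
  obtain ⟨v0, hv0, hv0'⟩ := hne
  have : Nontrivial E := ⟨⟨⟨v0, hv0⟩, 0, by simpa [Subtype.ext_iff] using hv0'⟩⟩
  set j : ℝ := ⨆ x : { x : E // x ≠ 0 }, RCLike.re ⟪T' x, x⟫ / ‖(x : E)‖ ^ 2 with hj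
  have hev := hsym.hasEigenvalue_iSup_of_finiteDimensional
  obtain ⟨w, hw⟩ := hev.exists_hasEigenvector
  have hw1 : T' w = j • w := hw.apply_eq_smul
  refine ⟨j, ⟨(w : V), w.2, ?_, ?_⟩, ?_⟩
  · have := hw.2
    simpa using this
  · have := congrArg (fun x : E => (x : V)) hw1
    simpa [hT'a] using this
  · intro v hv
    by_cases h0 : v = 0
    · subst h0; simp
    have hvne : (⟨v, hv⟩ : E) ≠ 0 := by simpa [Subtype.ext_iff] using h0
    have hbdd : BddAbove (Set.range fun x : { x : E // x ≠ 0 } =>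
        RCLike.re ⟪T' x, x⟫ / ‖(x : E)‖ ^ 2) := by
      refine ⟨‖T‖, ?_⟩
      rintro _ ⟨x, rfl⟩
      have hx : 0 < ‖(x : E)‖ := norm_pos_iff.2 x.2
      show RCLike.re ⟪T' x, x⟫ / ‖(x : E)‖ ^ 2 ≤ ‖T‖
      rw [div_le_iff₀ (by positivity)]
      have h1 : ⟪T' (x : E), (x : E)⟫ = ⟪T ((x : E) : V), ((x : E) : V)⟫ := rfl
      have h2 : ‖((x : E) : V)‖ = ‖(x : E)‖ := rfl
      have h3 : ⟪T ((x : E) : V), ((x : E) : V)⟫ ≤ ‖T ((x : E) : V)‖ * ‖((x : E) : V)‖ :=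
        real_inner_le_norm _ _
      have h4 : ‖T ((x : E) : V)‖ ≤ ‖T‖ * ‖((x : E) : V)‖ := T.le_opNorm _
      have h5 : RCLike.re ⟪T' (x : E), (x : E)⟫ = ⟪T' (x : E), (x : E)⟫ := rfl
      rw [h5, h1, ← h2]
      nlinarith [norm_nonneg ((x : E) : V)]
    have h1 := le_ciSup hbdd ⟨⟨v, hv⟩, hvne⟩
    have hvpos : 0 < ‖v‖ := norm_pos_iff.2 h0
    have h2 : RCLike.re ⟪T' (⟨v, hv⟩ : E), (⟨v, hv⟩ : E)⟫ / ‖(⟨v, hv⟩ : E)‖ ^ 2
        = ⟪v, T v⟫ / ‖v‖ ^ 2 := by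
      have : RCLike.re ⟪T' (⟨v, hv⟩ : E), (⟨v, hv⟩ : E)⟫ = ⟪T v, v⟫ := rfl
      rw [this, real_inner_comm]
      rfl
    have h3 : ⟪v, T v⟫ / ‖v‖ ^ 2 ≤ j := by
      rw [← h2]; exact h1
    rwa [div_le_iff₀ (by positivity)] at h3

theorem spec_symz (ρ : Perm X →* (V →L[ℝ] V)) (A : Finset X) (p : X) (hpA : p ∉ A) (w : V)
    (hwA : ∀ x ∈ A, ∀ y ∈ A, ρ (swap x y) w = w) :
    ∀ x ∈ insert p A, ∀ y ∈ insert p A, ρ (swap x y) (w + ∑ q ∈ A, ρ (swap p q) w)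
      = w + ∑ q ∈ A, ρ (swap p q) w := by
  have hpx : ∀ x ∈ A, ρ (swap p x) (w + ∑ q ∈ A, ρ (swap p q) w)
      = w + ∑ q ∈ A, ρ (swap p q) w := by
    intro x hx
    rw [map_add, map_sum, ← Finset.add_sum_erase A _ hx, ← Finset.add_sum_erase A
      (fun q => ρ (swap p q) w) hx]
    have h1 : ρ (swap p x) (ρ (swap p x) w) = w := by
      rw [spec_mul_apply, Equiv.swap_mul_self, map_one]; rfl
    rw [h1]
    have h2 : ∑ q ∈ A.erase x, ρ (swap p x) (ρ (swap p q) w)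
        = ∑ q ∈ A.erase x, ρ (swap p q) w := by
      refine Finset.sum_congr rfl fun q hq => ?_
      rw [Finset.mem_erase] at hq
      obtain ⟨hqx, hqA⟩ := hq
      have hpq : p ≠ q := fun h => hpA (h ▸ hqA)
      have hpx' : p ≠ x := fun h => hpA (h ▸ hx)
      have h3 : swap p x * swap p q = swap p q * swap q x := by
        rw [Equiv.swap_mul_eq_mul_swap, Equiv.swap_inv, Equiv.swap_apply_left,
          Equiv.swap_apply_of_ne_of_ne hpx'.symm hqx.symm]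
      rw [spec_mul_apply, h3, ← spec_mul_apply, hwA q hqA x hx]
    rw [h2]
    abel
  have hxy : ∀ x ∈ A, ∀ y ∈ A, ρ (swap x y) (w + ∑ q ∈ A, ρ (swap p q) w)
      = w + ∑ q ∈ A, ρ (swap p q) w := by
    intro x hx y hy
    rw [map_add, map_sum, hwA x hx y hy]
    congr 1
    have himg : A.image (swap x y) = A := by
      refine Finset.eq_of_subset_of_card_le (Finset.image_subset_iff.2 ?_)
        (by rw [Finset.card_image_of_injective _ (swap x y).injective])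
      intro z hz
      rw [Equiv.swap_apply_def]
      split_ifs <;> assumption
    have hre : ∀ f : X → V, ∑ q ∈ A, f (swap x y q) = ∑ q ∈ A, f q := by
      intro f
      conv_rhs => rw [← himg]
      rw [Finset.sum_image (fun a _ b _ h => (swap x y).injective h)]
    rw [← hre (fun q => ρ (swap p q) w)]
    refine Finset.sum_congr rfl fun q hq => ?_
    have hpx' : p ≠ x := fun h => hpA (h ▸ hx)
    have hpy' : p ≠ y := fun h => hpA (h ▸ hy)
    have h3 : swap x y * swap p q = swap p (swap x y q) * swap x y := by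
      rw [Equiv.mul_swap_eq_swap_mul, Equiv.swap_apply_of_ne_of_ne hpx' hpy']
    rw [spec_mul_apply, h3, ← spec_mul_apply, hwA x hx y hy]
  intro x hx y hy
  rw [Finset.mem_insert] at hx hy
  rcases hx with rfl | hx
  · rcases hy with rfl | hy
    · rw [Equiv.swap_self]
      have : ρ (Equiv.refl X) = 1 := map_one ρ
      rw [this]; rfl
    · exact hpx y hy
  · rcases hy with rfl | hy
    · rw [Equiv.swap_comm]; exact hpx x hx
    · exact hxy x hx y hy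

theorem spec_key [FiniteDimensional ℝ V] (ρ : Perm X →* (V →L[ℝ] V))
    (hρ : ∀ g v, ‖ρ g v‖ = ‖v‖) (n : ℕ) :
    ∀ (Y : Finset X), Y.card = n → ∀ (E : Submodule ℝ V) (a : ℕ),
      (∀ p ∈ Y, ∀ q ∈ Y, ∀ v ∈ E, ρ (swap p q) v ∈ E) →
      (∀ B : Finset X, B ⊆ Y → B.card = a + 1 → ∀ v ∈ E,
        (∀ p ∈ B, ∀ q ∈ B, ρ (swap p q) v = v) → v = 0) →
      ∀ v ∈ E, ⟪v, specT ρ Y v⟫ ≤ (a : ℝ) * Y.card * ‖v‖ ^ 2 := by
  classical
  induction n using Nat.strong_induction_on with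
  | _ n ih =>
  intro Y hYn E a hE hno v hv
  by_cases hYa : Y.card ≤ a
  · have h1 := specT_le ρ hρ Y v
    have h2 : (Y.card : ℝ) ≤ a := by exact_mod_cast hYa
    have h3 : (0 : ℝ) ≤ Y.card := by positivity
    have h4 : (Y.card : ℝ) ^ 2 * ‖v‖ ^ 2 ≤ (a : ℝ) * Y.card * ‖v‖ ^ 2 := by
      apply mul_le_mul_of_nonneg_right _ (by positivity)
      nlinarith
    linarith
  push Not at hYa
  by_cases hne : ∃ v ∈ E, v ≠ 0
  swap
  · push Not at hne
    rw [hne v hv]; simp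
  -- invariance of `E` under `specT`
  have hET : ∀ u ∈ E, specT ρ Y u ∈ E := by
    intro u hu
    rw [specT_apply]
    exact Submodule.sum_mem _ fun p hp => Submodule.sum_mem _ fun q hq => hE p hp q hq u hu
  obtain ⟨j, ⟨w0, hw0E, hw0, hw0j⟩, hj⟩ :=
    spec_eig (specT ρ Y) (specT_symm ρ hρ Y) E hET hne
  -- it is enough to bound `j`
  suffices hjle : j ≤ (a : ℝ) * Y.card by
    calc ⟪v, specT ρ Y v⟫ ≤ j * ‖v‖ ^ 2 := hj v hv
      _ ≤ (a : ℝ) * Y.card * ‖v‖ ^ 2 := mul_le_mul_of_nonneg_right hjle (by positivity)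
  -- maximal set of symmetry
  let P : Finset X → Prop := fun A => ∃ u ∈ E, u ≠ 0 ∧ specT ρ Y u = j • u ∧
    ∀ p ∈ A, ∀ q ∈ A, ρ (swap p q) u = u
  have hPn : (Y.powerset.filter P).Nonempty := by
    refine ⟨∅, ?_⟩
    rw [Finset.mem_filter]
    exact ⟨by simp, w0, hw0E, hw0, hw0j, by simp⟩
  obtain ⟨A, hA, hAmax⟩ := Finset.exists_max_image _ Finset.card hPn
  rw [Finset.mem_filter, Finset.mem_powerset] at hA
  obtain ⟨hAY, u, huE, hu0, huj, huA⟩ := hA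
  have hAmax' : ∀ B : Finset X, B ⊆ Y → P B → B.card ≤ A.card := by
    intro B hB hPB
    exact hAmax B (by rw [Finset.mem_filter, Finset.mem_powerset]; exact ⟨hB, hPB⟩)
  have hYne : Y.Nonempty := Finset.card_pos.1 (by omega)
  obtain ⟨y0, hy0⟩ := hYne
  have hb1 : 1 ≤ A.card := by
    have := hAmax' {y0} (by simpa using hy0) ⟨w0, hw0E, hw0, hw0j, by
      intro p hp q hq
      rw [Finset.mem_singleton] at hp hq
      subst hp; subst hq
      rw [Equiv.swap_self]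
      have : ρ (Equiv.refl X) = 1 := by
        have h := map_one ρ
        exact h
      rw [this]; rfl⟩
    simpa using this
  have hba : A.card ≤ a := by
    by_contra hcon
    push Not at hcon
    obtain ⟨B, hBA, hBc⟩ := Finset.exists_subset_card_eq (show a + 1 ≤ A.card by omega)
    exact hu0 (hno B (hBA.trans hAY) hBc u huE fun p hp q hq => huA p (hBA hp) q (hBA hq))
  -- the submodule `E'`
  let E' : Submodule ℝ V :=
    { carrier := {w | w ∈ E ∧ specT ρ Y w = j • w ∧ ∀ p ∈ A, ∀ q ∈ A, ρ (swap p q) w = w}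
      add_mem' := by
        rintro w w' ⟨h1, h2, h3⟩ ⟨h1', h2', h3'⟩
        refine ⟨E.add_mem h1 h1', ?_, ?_⟩
        · rw [map_add, h2, h2', smul_add]
        · intro p hp q hq
          rw [map_add, h3 p hp q hq, h3' p hp q hq]
      zero_mem' := by
        refine ⟨E.zero_mem, ?_, ?_⟩
        · rw [map_zero, smul_zero]
        · intro p hp q hq
          rw [map_zero]
      smul_mem' := by
        rintro c w ⟨h1, h2, h3⟩
        refine ⟨E.smul_mem c h1, ?_, ?_⟩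
        · rw [map_smul, h2, smul_comm]
        · intro p hp q hq
          rw [map_smul, h3 p hp q hq] }
  have hE'mem : ∀ w, w ∈ E' ↔ (w ∈ E ∧ specT ρ Y w = j • w ∧
      ∀ p ∈ A, ∀ q ∈ A, ρ (swap p q) w = w) := fun w => Iff.rfl
  -- commutation of specT with swaps of Y
  have hcomm : ∀ p ∈ Y, ∀ q ∈ Y, ∀ w, specT ρ Y (ρ (swap p q) w) = ρ (swap p q) (specT ρ Y w) := by
    intro p hp q hq w
    refine specT_comm ρ Y (swap p q) ?_ w
    intro x hx
    rw [Equiv.swap_apply_def]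
    split_ifs <;> assumption
  have hEj : ∀ p ∈ Y, ∀ q ∈ Y, ∀ w, specT ρ Y w = j • w →
      specT ρ Y (ρ (swap p q) w) = j • ρ (swap p q) w := by
    intro p hp q hq w hw
    rw [hcomm p hp q hq, hw, map_smul]
  -- symmetrisation
  have hsymz : ∀ w ∈ E', ∀ p ∈ Y \ A, ∑ q ∈ A, ρ (swap p q) w = -w := by
    intro w hw p hp
    rw [Finset.mem_sdiff] at hp
    obtain ⟨hpY, hpA⟩ := hp
    obtain ⟨hwE, hwj, hwA⟩ := (hE'mem w).1 hw
    have hz : w + ∑ q ∈ A, ρ (swap p q) w = 0 := by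
      by_contra hzne
      have hP : P (insert p A) := by
        refine ⟨w + ∑ q ∈ A, ρ (swap p q) w, ?_, hzne, ?_, ?_⟩
        · exact E.add_mem hwE (Submodule.sum_mem _ fun q hq => hE p hpY q (hAY hq) w hwE)
        · rw [map_add, map_sum, hwj, smul_add, Finset.smul_sum]
          congr 1
          exact Finset.sum_congr rfl fun q hq => hEj p hpY q (hAY hq) w hwj
        · exact spec_symz ρ A p hpA w hwA
      have h1 := hAmax' (insert p A) (Finset.insert_subset hpY hAY) hP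
      rw [Finset.card_insert_of_notMem hpA] at h1
      omega
    have := eq_neg_of_add_eq_zero_right hz
    exact this
  -- induction hypothesis on `Y \ A`
  have hcard : (Y \ A).card = Y.card - A.card := Finset.card_sdiff_of_subset hAY
  have hAleY : A.card ≤ Y.card := Finset.card_le_card hAY
  have hih := ih (Y \ A).card (by omega) (Y \ A) rfl E' A.card
    (by
      intro p hp q hq w hw
      rw [Finset.mem_sdiff] at hp hq
      obtain ⟨hwE, hwj, hwA⟩ := (hE'mem w).1 hw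
      refine (hE'mem _).2 ⟨hE p hp.1 q hq.1 w hwE, hEj p hp.1 q hq.1 w hwj, ?_⟩
      intro x hx y hy
      have h3 : swap x y * swap p q = swap p q * swap x y := by
        have hpx' : p ≠ x := fun h => hp.2 (h ▸ hx)
        have hpy' : p ≠ y := fun h => hp.2 (h ▸ hy)
        have hqx' : q ≠ x := fun h => hq.2 (h ▸ hx)
        have hqy' : q ≠ y := fun h => hq.2 (h ▸ hy)
        rw [Equiv.mul_swap_eq_swap_mul, Equiv.swap_apply_of_ne_of_ne hpx' hpy',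
          Equiv.swap_apply_of_ne_of_ne hqx' hqy']
      rw [spec_mul_apply, h3, ← spec_mul_apply, hwA x hx y hy])
    (by
      intro B hB hBc w hw hwB
      obtain ⟨hwE, hwj, hwA⟩ := (hE'mem w).1 hw
      by_contra hw0
      have := hAmax' B (hB.trans Finset.sdiff_subset) ⟨w, hwE, hw0, hwj, hwB⟩
      omega)
  have huE' : u ∈ E' := (hE'mem u).2 ⟨huE, huj, huA⟩
  have hih' := hih u huE'
  -- decomposition of the quadratic form
  have hsplit : ⟪u, specT ρ Y u⟫ = ⟪u, specT ρ (Y \ A) u⟫ + (A.card : ℝ) ^ 2 * ‖u‖ ^ 2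
      - 2 * ((Y \ A).card : ℝ) * ‖u‖ ^ 2 := by
    have hdec : ∀ f : X → ℝ, ∑ p ∈ Y, f p = ∑ p ∈ Y \ A, f p + ∑ p ∈ A, f p := by
      intro f
      rw [Finset.sum_sdiff hAY]
    have hQ : ∀ Y' : Finset X, ⟪u, specT ρ Y' u⟫ = ∑ p ∈ Y', ∑ q ∈ Y', ⟪u, ρ (swap p q) u⟫ := by
      intro Y'
      rw [specT_apply, inner_sum]
      exact Finset.sum_congr rfl fun p _ => by rw [inner_sum]
    rw [hQ, hQ, hdec]
    have hAA : ∑ p ∈ A, ∑ q ∈ A, ⟪u, ρ (swap p q) u⟫ = (A.card : ℝ) ^ 2 * ‖u‖ ^ 2 := by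
      calc ∑ p ∈ A, ∑ q ∈ A, ⟪u, ρ (swap p q) u⟫ = ∑ p ∈ A, ∑ q ∈ A, ‖u‖ ^ 2 := by
            refine Finset.sum_congr rfl fun p hp => Finset.sum_congr rfl fun q hq => ?_
            rw [huA p hp q hq, real_inner_self_eq_norm_sq]
        _ = _ := by simp only [Finset.sum_const, nsmul_eq_mul]; ring
    have hcross : ∑ p ∈ Y \ A, ∑ q ∈ A, ⟪u, ρ (swap p q) u⟫
        = - ((Y \ A).card : ℝ) * ‖u‖ ^ 2 := by
      calc ∑ p ∈ Y \ A, ∑ q ∈ A, ⟪u, ρ (swap p q) u⟫ = ∑ p ∈ Y \ A, - ‖u‖ ^ 2 := by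
            refine Finset.sum_congr rfl fun p hp => ?_
            rw [← inner_sum, hsymz u huE' p hp, inner_neg_right, real_inner_self_eq_norm_sq]
        _ = _ := by simp only [Finset.sum_const, nsmul_eq_mul]; ring
    have hcross' : ∑ p ∈ A, ∑ q ∈ Y \ A, ⟪u, ρ (swap p q) u⟫
        = - ((Y \ A).card : ℝ) * ‖u‖ ^ 2 := by
      rw [Finset.sum_comm, ← hcross]
      refine Finset.sum_congr rfl fun p _ => Finset.sum_congr rfl fun q _ => ?_
      rw [Equiv.swap_comm]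
    have e1 : ∑ p ∈ Y \ A, ∑ q ∈ Y, ⟪u, ρ (swap p q) u⟫
        = ∑ p ∈ Y \ A, ∑ q ∈ Y \ A, ⟪u, ρ (swap p q) u⟫
          + ∑ p ∈ Y \ A, ∑ q ∈ A, ⟪u, ρ (swap p q) u⟫ := by
      rw [← Finset.sum_add_distrib]
      exact Finset.sum_congr rfl fun p _ => hdec _
    have e2 : ∑ p ∈ A, ∑ q ∈ Y, ⟪u, ρ (swap p q) u⟫
        = ∑ p ∈ A, ∑ q ∈ Y \ A, ⟪u, ρ (swap p q) u⟫
          + ∑ p ∈ A, ∑ q ∈ A, ⟪u, ρ (swap p q) u⟫ := by
      rw [← Finset.sum_add_distrib]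
      exact Finset.sum_congr rfl fun p _ => hdec _
    rw [e1, e2, hAA, hcross, hcross']
    ring
  have hupos : 0 < ‖u‖ ^ 2 := by
    have := norm_pos_iff.2 hu0
    positivity
  have hju : ⟪u, specT ρ Y u⟫ = j * ‖u‖ ^ 2 := by
    rw [huj, inner_smul_right, real_inner_self_eq_norm_sq]
  have hcardR : ((Y \ A).card : ℝ) = (Y.card : ℝ) - A.card := by
    rw [hcard, Nat.cast_sub hAleY]
  have hbaR : (A.card : ℝ) ≤ a := by exact_mod_cast hba
  have hAleYR : (A.card : ℝ) ≤ Y.card := by exact_mod_cast hAleY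
  have hApos : (0 : ℝ) ≤ A.card := by positivity
  have h5 : j * ‖u‖ ^ 2 ≤ ((a : ℝ) * Y.card) * ‖u‖ ^ 2 := by
    rw [← hju, hsplit]
    have h6 : (A.card : ℝ) * ((Y \ A).card : ℝ) + (A.card : ℝ) ^ 2
        - 2 * ((Y \ A).card : ℝ) ≤ (a : ℝ) * Y.card := by
      rw [hcardR]
      nlinarith
    nlinarith
  exact le_of_mul_le_mul_right h5 hupos

end specaux

/-- If an invariant subspace `U` contains no nonzero vector which is symmetric in `r` points,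
then `Lam ≥ (N - r + 1) / 2` on `U`. -/
theorem spec_bound [FiniteDimensional ℝ V] (ρ : Perm X →* (V →L[ℝ] V))
    (hρ : ∀ g v, ‖ρ g v‖ = ‖v‖)
    (U : Submodule ℝ V) (hU : ∀ g, ∀ u ∈ U, ρ g u ∈ U) (r : ℕ) (hr : 1 ≤ r)
    (hr' : r ≤ Fintype.card X)
    (hno : ∀ A : Finset X, A.card = r → ∀ u ∈ U,
      (∀ p ∈ A, ∀ q ∈ A, ρ (swap p q) u = u) → u = 0) :
    ∀ u ∈ U, (((Fintype.card X : ℝ) - r + 1) / 2) * ‖u‖ ^ 2 ≤ ⟪u, Lam ρ u⟫ := by
  intro u hu
  have hkey := spec_key ρ hρ (Finset.univ : Finset X).card Finset.univ rfl U (r - 1)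
    (fun p _ q _ v hv => hU _ v hv)
    (fun B _ hB v hv h => hno B (by omega) v hv h) u hu
  have hN : (0 : ℝ) < Fintype.card X := by exact_mod_cast (by omega : 0 < Fintype.card X)
  have hr1 : ((r - 1 : ℕ) : ℝ) = (r : ℝ) - 1 := by
    rw [Nat.cast_sub hr]; simp
  rw [hr1, Finset.card_univ] at hkey
  have hL : ⟪u, Lam ρ u⟫ = (1 / (2 * (Fintype.card X : ℝ))) *
      ((Fintype.card X : ℝ) ^ 2 * ‖u‖ ^ 2 - ⟪u, specT ρ Finset.univ u⟫) := by
    unfold Lam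
    rw [_root_.smul_apply, inner_smul_right]
    congr 1
    have hsum : (∑ p : X, ∑ q : X, (1 - ρ (swap p q))) u =
        ((Fintype.card X : ℝ) ^ 2) • u - specT ρ Finset.univ u := by
      rw [specT_apply]
      simp only [_root_.sum_apply, _root_.sub_apply,
        Finset.sum_sub_distrib, Finset.sum_const,
        Finset.card_univ]
      rw [← Nat.cast_smul_eq_nsmul ℝ, ← Nat.cast_smul_eq_nsmul ℝ, smul_smul, pow_two]
      rfl
    rw [hsum, inner_sub_right, inner_smul_right, real_inner_self_eq_norm_sq]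
  rw [hL]
  rw [show (((Fintype.card X : ℝ) - r + 1) / 2) * ‖u‖ ^ 2 = (1 / (2 * (Fintype.card X : ℝ))) *
      ((Fintype.card X : ℝ) ^ 2 * ‖u‖ ^ 2 - ((r : ℝ) - 1) * (Fintype.card X : ℝ) * ‖u‖ ^ 2) by
    field_simp; ring]
  apply mul_le_mul_of_nonneg_left _ (by positivity)
  linarith

end Vale.Agent.H16.Thorp
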