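import Mathlib
import Vale.Agent.H16.Thorp.Rep
import Vale.Agent.H16.Thorp.ExpLem
import Vale.Agent.H16.Thorp.Spec

/-! # P162, row R4: `L²` mixing of the random transposition semigroup (elementary) -/

namespace Vale.Agent.H16.Thorp

open Equiv
open scoped RealInnerProductSpace

variable {X : Type*} [Fintype X] [DecidableEq X]

/-- Left regular representation on functions on the symmetric group. -/
noncomputable def reg (X : Type*) [Fintype X] [DecidableEq X] :
    Perm X →* (EuclideanSpace ℝ (Perm X) →L[ℝ] EuclideanSpace ℝ (Perm X)) where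
  toFun g := LinearMap.toContinuousLinearMap
    { toFun := fun f => WithLp.toLp 2 (fun h => f (g⁻¹ * h))
      map_add' := by intro f f'; ext h; simp
      map_smul' := by intro a f; ext h; simp }
  map_one' := by ext f h; simp
  map_mul' g k := by ext f h; simp [mul_assoc]

theorem reg_apply (g : Perm X) (f : EuclideanSpace ℝ (Perm X)) (h : Perm X) :
    reg X g f h = f (g⁻¹ * h) := rfl

theorem reg_iso (g : Perm X) (f : EuclideanSpace ℝ (Perm X)) : ‖reg X g f‖ = ‖f‖ := by
  rw [EuclideanSpace.norm_eq, EuclideanSpace.norm_eq]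
  congr 1
  simp only [reg_apply]
  exact Fintype.sum_equiv (Equiv.mulLeft g⁻¹) _ _ (fun h => rfl)

/-- the centred point mass at `g₀` -/
noncomputable def delta0 (g₀ : Perm X) : EuclideanSpace ℝ (Perm X) :=
  WithLp.toLp 2 (fun h => (if h = g₀ then 1 else 0) - 1 / (Fintype.card (Perm X) : ℝ))

namespace Lev

/-- right translation -/
noncomputable def rt (k : Perm X) :
    EuclideanSpace ℝ (Perm X) →ₗ[ℝ] EuclideanSpace ℝ (Perm X) where
  toFun := fun f => WithLp.toLp 2 (fun h => f (h * k))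
  map_add' := by intro f f'; ext h; simp
  map_smul' := by intro a f; ext h; simp

theorem rt_apply (k : Perm X) (f : EuclideanSpace ℝ (Perm X)) (h : Perm X) :
    rt k f h = f (h * k) := rfl

theorem inner_eq_sum (f g : EuclideanSpace ℝ (Perm X)) : ⟪f, g⟫ = ∑ h, f h * g h := by
  rw [PiLp.inner_apply]
  refine Finset.sum_congr rfl fun h _ => ?_
  simp [mul_comm]

theorem rt_inner (k : Perm X) (f g : EuclideanSpace ℝ (Perm X)) :
    ⟪rt k f, rt k g⟫ = ⟪f, g⟫ := by
  rw [inner_eq_sum, inner_eq_sum]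
  simp only [rt_apply]
  exact Fintype.sum_equiv (Equiv.mulRight k) _ _ (fun h => rfl)

/-- indicator of `g ∘ a = b` -/
noncomputable def ind (l : ℕ) (ab : (Fin l → X) × (Fin l → X)) : EuclideanSpace ℝ (Perm X) :=
  WithLp.toLp 2 (fun g => if ∀ i, g (ab.1 i) = ab.2 i then 1 else 0)

theorem ind_apply (l : ℕ) (a b : Fin l → X) (g : Perm X) :
    ind l (a, b) g = if ∀ i, g (a i) = b i then 1 else 0 := rfl

/-- level space -/
noncomputable def Vl (X : Type*) [Fintype X] [DecidableEq X] (l : ℕ) :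
    Submodule ℝ (EuclideanSpace ℝ (Perm X)) :=
  Submodule.span ℝ (Set.range (ind (X := X) l))

theorem ind_mem (l : ℕ) (ab : (Fin l → X) × (Fin l → X)) : ind l ab ∈ Vl X l :=
  Submodule.subset_span ⟨ab, rfl⟩

theorem reg_ind (l : ℕ) (h : Perm X) (a b : Fin l → X) :
    reg X h (ind l (a, b)) = ind l (a, fun i => h (b i)) := by
  ext g
  rw [reg_apply, ind_apply, ind_apply]
  congr 1
  simp only [Perm.mul_apply, Perm.inv_eq_iff_eq]

theorem rt_ind (l : ℕ) (k : Perm X) (a b : Fin l → X) :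
    rt k (ind l (a, b)) = ind l (fun i => k (a i), b) := by
  ext g
  rw [rt_apply, ind_apply, ind_apply]
  rfl

theorem reg_mem (l : ℕ) (h : Perm X) {f : EuclideanSpace ℝ (Perm X)} (hf : f ∈ Vl X l) :
    reg X h f ∈ Vl X l := by
  unfold Vl at hf
  induction hf using Submodule.span_induction with
  | mem x hx =>
    obtain ⟨⟨a, b⟩, rfl⟩ := hx
    rw [reg_ind]; exact ind_mem _ _
  | zero => rw [map_zero]; exact Submodule.zero_mem _
  | add x y _ _ hx hy => rw [map_add]; exact Submodule.add_mem _ hx hy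
  | smul a x _ hx => rw [map_smul]; exact Submodule.smul_mem _ _ hx

theorem rt_mem (l : ℕ) (h : Perm X) {f : EuclideanSpace ℝ (Perm X)} (hf : f ∈ Vl X l) :
    rt h f ∈ Vl X l := by
  unfold Vl at hf
  induction hf using Submodule.span_induction with
  | mem x hx =>
    obtain ⟨⟨a, b⟩, rfl⟩ := hx
    rw [rt_ind]; exact ind_mem _ _
  | zero => rw [map_zero]; exact Submodule.zero_mem _
  | add x y _ _ hx hy => rw [map_add]; exact Submodule.add_mem _ hx hy
  | smul a x _ hx => rw [map_smul]; exact Submodule.smul_mem _ _ hx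

theorem Vl_le_succ [Nonempty X] (l : ℕ) : Vl X l ≤ Vl X (l + 1) := by
  unfold Vl
  rw [Submodule.span_le]
  rintro _ ⟨⟨a, b⟩, rfl⟩
  obtain ⟨x0⟩ := ‹Nonempty X›
  have : ind l (a, b) = ∑ y : X, ind (l + 1) (Fin.cons x0 a, Fin.cons y b) := by
    ext g
    rw [WithLp.ofLp_sum, Finset.sum_apply]
    have h1 : ∀ y : X, (ind (l + 1) (Fin.cons x0 a, Fin.cons y b)) g =
        if y = g x0 then ind l (a, b) g else 0 := by
      intro y
      rw [ind_apply, ind_apply]
      by_cases hy : y = g x0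
      · rw [if_pos hy]
        congr 1
        rw [eq_iff_iff, Fin.forall_fin_succ]
        simp [hy]
      · rw [if_neg hy, if_neg]
        intro h
        apply hy
        have := h 0
        simpa using this.symm
    have h2 : ∀ y : X, (ind (l + 1) (Fin.cons x0 a, Fin.cons y b)).ofLp g =
        if y = g x0 then ind l (a, b) g else 0 := h1
    simp only [h2]
    rw [Finset.sum_ite_eq' Finset.univ (g x0)]
    simp
  rw [SetLike.mem_coe, this]
  exact Submodule.sum_mem _ fun y _ => ind_mem _ _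

/-- point mass -/
noncomputable def del (g₀ : Perm X) : EuclideanSpace ℝ (Perm X) :=
  WithLp.toLp 2 (fun h => if h = g₀ then 1 else 0)

theorem del_apply (g₀ h : Perm X) : del g₀ h = if h = g₀ then 1 else 0 := rfl

theorem del_mem (g₀ : Perm X) : del g₀ ∈ Vl X (Fintype.card X) := by
  have e : Fin (Fintype.card X) ≃ X := (Fintype.equivFin X).symm
  have : del g₀ = ind (Fintype.card X) (fun i => e i, fun i => g₀ (e i)) := by
    ext g
    rw [del_apply, ind_apply]
    congr 1
    rw [eq_iff_iff]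
    constructor
    · rintro rfl i; rfl
    · intro h
      ext x
      have h1 := h (e.symm x)
      simpa using h1
  rw [this]
  exact ind_mem _ _

theorem inner_del (f : EuclideanSpace ℝ (Perm X)) (g : Perm X) : ⟪f, del g⟫ = f g := by
  rw [inner_eq_sum]
  simp [del_apply]

theorem rt_del (k g : Perm X) : rt k (del g) = del (g * k⁻¹) := by
  ext h
  rw [rt_apply, del_apply, del_apply]
  congr 1
  rw [eq_iff_iff]
  constructor
  · rintro rfl; simp
  · rintro rfl; simp

theorem finrank_Vl_le (l : ℕ) :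
    (Module.finrank ℝ (Vl X l) : ℝ) ≤ ((Fintype.card X : ℝ) ^ 2) ^ l := by
  have h := finrank_range_le_card (R := ℝ) (ind (X := X) l)
  have h2 : Fintype.card ((Fin l → X) × (Fin l → X)) = (Fintype.card X ^ 2) ^ l := by
    rw [Fintype.card_prod, Fintype.card_fun, Fintype.card_fin]
    ring
  rw [h2] at h
  have h3 : Module.finrank ℝ (Vl X l) ≤ (Fintype.card X ^ 2) ^ l := h
  exact_mod_cast h3

/-- sum of the squared norms of the projections of the point masses -/
theorem sum_proj (K : Submodule ℝ (EuclideanSpace ℝ (Perm X))) :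
    ∑ g : Perm X, ‖K.starProjection (del g)‖ ^ 2 = Module.finrank ℝ K := by
  set b := stdOrthonormalBasis ℝ K
  have h1 : ∀ g : Perm X, ‖K.starProjection (del g)‖ ^ 2 = ∑ i, ((b i : EuclideanSpace ℝ (Perm X)) g) ^ 2 := by
    intro g
    have : ‖K.starProjection (del g)‖ = ‖K.orthogonalProjectionOnto (del g)‖ := rfl
    rw [this, ← b.sum_sq_norm_inner_right]
    refine Finset.sum_congr rfl fun i _ => ?_
    rw [Submodule.inner_orthogonalProjectionOnto_eq_of_mem_left, inner_del]
    simp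
  simp only [h1]
  rw [Finset.sum_comm]
  have h2 : ∀ i, ∑ g : Perm X, ((b i : EuclideanSpace ℝ (Perm X)) g) ^ 2 = 1 := by
    intro i
    have : ‖(b i : EuclideanSpace ℝ (Perm X))‖ = 1 := b.norm_eq_one i
    have h3 := EuclideanSpace.norm_sq_eq (b i : EuclideanSpace ℝ (Perm X))
    rw [this] at h3
    simpa using h3.symm
  simp only [h2]
  simp

theorem proj_del_le (l : ℕ) (g g' : Perm X) :
    ‖(Vl X l).starProjection (del g)‖ ≤ ‖(Vl X l).starProjection (del g')‖ := by
  set y := (Vl X l).starProjection (del g) with hy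
  set z := (Vl X l).starProjection (del g') with hz
  have hyV : y ∈ Vl X l := Submodule.starProjection_apply_mem _ _
  set R := rt (g'⁻¹ * g) with hR
  have hRg : R (del g) = del g' := by rw [hR, rt_del]; simp
  have hRy : R y ∈ Vl X l := rt_mem _ _ hyV
  have h1 : ⟪y, y⟫ = ⟪y, del g⟫ := by
    have := Submodule.starProjection_inner_eq_zero (K := Vl X l) (del g) y hyV
    rw [← hy, inner_sub_left] at this
    rw [real_inner_comm (del g) y]
    linarith
  have h2 : ⟪R y, del g'⟫ = ⟪R y, z⟫ := by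
    have := Submodule.starProjection_inner_eq_zero (K := Vl X l) (del g') (R y) hRy
    rw [← hz, inner_sub_left] at this
    rw [real_inner_comm (del g') (R y), real_inner_comm z (R y)]
    linarith
  have h3 : ⟪y, del g⟫ = ⟪R y, del g'⟫ := by rw [← hRg, hR, rt_inner]
  have h4 : ⟪R y, z⟫ ≤ ‖R y‖ * ‖z‖ := real_inner_le_norm _ _
  have h5 : ‖R y‖ = ‖y‖ := by
    have := rt_inner (g'⁻¹ * g) y y
    rw [real_inner_self_eq_norm_sq, real_inner_self_eq_norm_sq] at this
    exact (sq_eq_sq₀ (norm_nonneg _) (norm_nonneg _)).mp this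
  rw [real_inner_self_eq_norm_sq] at h1
  rw [h5] at h4
  rcases (norm_nonneg y).eq_or_lt with h0 | h0
  · rw [← h0]; exact norm_nonneg _
  · have : ‖y‖ * ‖y‖ ≤ ‖y‖ * ‖z‖ := by nlinarith
    exact le_of_mul_le_mul_left this h0

theorem proj_bound (l : ℕ) (g : Perm X) :
    (Fintype.card (Perm X) : ℝ) * ‖(Vl X l).starProjection (del g)‖ ^ 2 ≤
      ((Fintype.card X : ℝ) ^ 2) ^ l := by
  refine le_trans ?_ (finrank_Vl_le l)
  rw [← sum_proj]
  have : (Fintype.card (Perm X) : ℝ) * ‖(Vl X l).starProjection (del g)‖ ^ 2 =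
      ∑ _g' : Perm X, ‖(Vl X l).starProjection (del g)‖ ^ 2 := by
    rw [Finset.sum_const, nsmul_eq_mul, Finset.card_univ]
  rw [this]
  refine Finset.sum_le_sum fun g' _ => ?_
  exact pow_le_pow_left₀ (norm_nonneg _) (proj_del_le l g g') 2

/-- the orthogonal complement of a level space is invariant -/
theorem reg_mem_orth (l : ℕ) (h : Perm X) {f : EuclideanSpace ℝ (Perm X)}
    (hf : f ∈ (Vl X l)ᗮ) : reg X h f ∈ (Vl X l)ᗮ := by
  rw [Submodule.mem_orthogonal] at hf ⊢
  intro u hu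
  have h1 := rho_inner (reg X) reg_iso h⁻¹ u f
  rw [inv_inv] at h1
  rw [← h1]
  exact hf _ (reg_mem l _ hu)

/-- `Lam` preserves every invariant subspace -/
theorem lam_mem (U : Submodule ℝ (EuclideanSpace ℝ (Perm X)))
    (hU : ∀ g, ∀ u ∈ U, reg X g u ∈ U) : ∀ u ∈ U, Lam (reg X) u ∈ U := by
  intro u hu
  unfold Lam
  rw [ContinuousLinearMap.smul_apply]
  refine Submodule.smul_mem _ _ ?_
  rw [ContinuousLinearMap.sum_apply]
  refine Submodule.sum_mem _ fun p _ => ?_
  rw [ContinuousLinearMap.sum_apply]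
  refine Submodule.sum_mem _ fun q _ => ?_
  rw [ContinuousLinearMap.sub_apply]
  exact Submodule.sub_mem _ hu (hU _ _ hu)

theorem fixed_ofSubtype (A : Finset X) (u : EuclideanSpace ℝ (Perm X))
    (h : ∀ p ∈ A, ∀ q ∈ A, reg X (swap p q) u = u) (σ : Perm {x // x ∈ A}) :
    reg X (Perm.ofSubtype σ) u = u := by
  induction σ using Perm.swap_induction_on with
  | one => rw [map_one, map_one]; rfl
  | swap_mul f x y _ ih =>
    rw [map_mul, map_mul, Perm.ofSubtype_swap_eq]
    change reg X (swap x.1 y.1) (reg X (Perm.ofSubtype f) u) = u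
    rw [ih]
    exact h _ x.2 _ y.2

theorem fixed_of_fixes (A : Finset X) (u : EuclideanSpace ℝ (Perm X))
    (h : ∀ p ∈ A, ∀ q ∈ A, reg X (swap p q) u = u) (σ : Perm X)
    (hσ : ∀ x, x ∉ A → σ x = x) : reg X σ u = u := by
  have h1 : ∀ x, σ x ∈ A ↔ x ∈ A := by
    intro x
    by_cases hx : x ∈ A
    · by_cases hx' : σ x ∈ A
      · simp [hx, hx']
      · exfalso
        have := hσ _ hx'
        have h3 := σ.injective this
        rw [h3] at hx'
        exact hx' hx
    · rw [hσ x hx]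
  have h2 : ∀ x, σ x ≠ x → x ∈ A := by
    intro x hx
    by_contra hA
    exact hx (hσ x hA)
  have h3 := Perm.ofSubtype_subtypePerm (p := fun x => x ∈ A) h1 h2
  rw [← h3]
  exact fixed_ofSubtype A u h _

theorem no_sym (l : ℕ) (hl : l ≤ Fintype.card X) (A : Finset X)
    (hA : A.card = Fintype.card X - l) (u : EuclideanSpace ℝ (Perm X)) (hu : u ∈ (Vl X l)ᗮ)
    (h : ∀ p ∈ A, ∀ q ∈ A, reg X (swap p q) u = u) : u = 0 := by
  have hAc : Fintype.card {x // x ∈ Aᶜ} = l := by
    rw [Fintype.card_coe, Finset.card_compl, hA]; omega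
  let e : {x // x ∈ Aᶜ} ≃ Fin l := Fintype.equivFinOfCardEq hAc
  let p : Fin l → X := fun i => (e.symm i).1
  have hp : ∀ x, x ∉ A → ∃ i, p i = x := by
    intro x hx
    exact ⟨e ⟨x, Finset.mem_compl.mpr hx⟩, by simp [p]⟩
  have key : ∀ g g' : Perm X, (∀ i, g' (g⁻¹ (p i)) = p i) → u g' = u g := by
    intro g g' hg
    have hfix := fixed_of_fixes A u h (g * g'⁻¹) (by
      intro x hx
      obtain ⟨i, rfl⟩ := hp x hx
      have := hg i
      rw [Perm.mul_apply]
      have h2 : g'⁻¹ (p i) = g⁻¹ (p i) := by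
        rw [Perm.inv_eq_iff_eq]; exact this.symm
      rw [h2]; simp)
    have h3 := congrArg (fun f : EuclideanSpace ℝ (Perm X) => f g) hfix
    simp only [reg_apply] at h3
    rw [← h3]
    congr 1
    group
  ext g
  have h0 : ⟪ind l (fun i => g⁻¹ (p i), p), u⟫ = 0 :=
    (Submodule.mem_orthogonal _ _).mp hu _ (ind_mem _ _)
  rw [inner_eq_sum] at h0
  have h1 : ∀ g' : Perm X, ind l (fun i => g⁻¹ (p i), p) g' * u g' =
      ind l (fun i => g⁻¹ (p i), p) g' * u g := by
    intro g'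
    rw [ind_apply]
    split_ifs with hc
    · rw [key g g' hc]
    · simp
  simp only [h1] at h0
  rw [← Finset.sum_mul] at h0
  rcases mul_eq_zero.mp h0 with h2 | h2
  · exfalso
    have h3 : (1 : ℝ) ≤ ∑ g' : Perm X, ind l (fun i => g⁻¹ (p i), p) g' := by
      have h4 : ind l (fun i => g⁻¹ (p i), p) g = 1 := by
        rw [ind_apply, if_pos]; intro i; simp
      rw [← h4]
      refine Finset.single_le_sum (f := fun g' => ind l (fun i => g⁻¹ (p i), p) g')
        (fun g' _ => ?_) (Finset.mem_univ g)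
      rw [ind_apply]; split_ifs <;> norm_num
    linarith
  · simpa using h2

theorem lam_level (l : ℕ) (hl : l < Fintype.card X) :
    ∀ u ∈ (Vl X l)ᗮ, (((l : ℝ) + 1) / 2) * ‖u‖ ^ 2 ≤ ⟪u, Lam (reg X) u⟫ := by
  intro u hu
  have h := spec_bound (reg X) reg_iso (Vl X l)ᗮ (fun g u hu => reg_mem_orth l g hu)
    (Fintype.card X - l) (by omega) (by omega)
    (fun A hA u hu hfix => no_sym l hl.le A hA u hu hfix) u hu
  have h2 : ((Fintype.card X - l : ℕ) : ℝ) = (Fintype.card X : ℝ) - l := by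
    rw [Nat.cast_sub hl.le]
  rw [h2] at h
  have h3 : ((Fintype.card X : ℝ) - ((Fintype.card X : ℝ) - l) + 1) = (l : ℝ) + 1 := by ring
  rw [h3] at h
  exact h

/-- remainder of the point mass beyond level `l` -/
noncomputable def rem (l : ℕ) (g₀ : Perm X) : EuclideanSpace ℝ (Perm X) :=
  del g₀ - (Vl X l).starProjection (del g₀)

theorem rem_mem (l : ℕ) (g₀ : Perm X) : rem l g₀ ∈ (Vl X l)ᗮ :=
  Submodule.sub_starProjection_mem_orthogonal _

theorem delta0_eq (g₀ : Perm X) : delta0 g₀ = rem 0 g₀ := by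
  unfold rem
  have h1 : (Vl X 0).starProjection (del g₀) =
      (1 / (Fintype.card (Perm X) : ℝ)) • ind 0 (fun i => i.elim0, fun i => i.elim0) := by
    apply Submodule.eq_starProjection_of_mem_of_inner_eq_zero
    · exact Submodule.smul_mem _ _ (ind_mem _ _)
    · intro w hw
      unfold Vl at hw
      induction hw using Submodule.span_induction with
      | mem x hx =>
        obtain ⟨⟨a, b⟩, rfl⟩ := hx
        rw [inner_sub_left, inner_smul_left, real_inner_comm, inner_del, inner_eq_sum]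
        simp [ind_apply]
      | zero => rw [inner_zero_right]
      | add x y _ _ hx hy => rw [inner_add_right, hx, hy, add_zero]
      | smul a x _ hx => rw [inner_smul_right, hx, mul_zero]
  rw [h1]
  ext h
  simp [delta0, del, ind]

theorem rem_top (g₀ : Perm X) : rem (Fintype.card X) g₀ = 0 := by
  unfold rem
  rw [Submodule.starProjection_eq_self_iff.mpr (del_mem g₀), sub_self]

theorem step [Nonempty X] (t : ℝ) (ht0 : 0 ≤ t) (g₀ : Perm X) (l : ℕ)
    (hl : l < Fintype.card X) :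
    (Fintype.card (Perm X) : ℝ) *
      ⟪rem l g₀, NormedSpace.exp (-(t • Lam (reg X))) (rem l g₀)⟫ ≤
    ((Fintype.card X : ℝ) ^ 2 * Real.exp (-(t / 2))) ^ (l + 1) +
    (Fintype.card (Perm X) : ℝ) *
      ⟪rem (l + 1) g₀, NormedSpace.exp (-(t • Lam (reg X))) (rem (l + 1) g₀)⟫ := by
  set T := NormedSpace.exp (-(t • Lam (reg X))) with hT
  set w := (Vl X (l + 1)).starProjection (del g₀) - (Vl X l).starProjection (del g₀) with hw
  have hsplit : rem l g₀ = w + rem (l + 1) g₀ := by
    unfold rem; rw [hw]; abel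
  have hwV : w ∈ Vl X (l + 1) :=
    Submodule.sub_mem _ (Submodule.starProjection_apply_mem _ _)
      (Vl_le_succ l (Submodule.starProjection_apply_mem _ _))
  have hremo : rem (l + 1) g₀ ∈ (Vl X (l + 1))ᗮ := rem_mem _ _
  have horth : (Vl X (l + 1))ᗮ ≤ (Vl X l)ᗮ := Submodule.orthogonal_le (Vl_le_succ l)
  have hwo : w ∈ (Vl X l)ᗮ := by
    have : w = rem l g₀ - rem (l + 1) g₀ := by rw [hsplit]; abel
    rw [this]
    exact Submodule.sub_mem _ (rem_mem _ _) (horth hremo)
  have hLam1 : ∀ u ∈ (Vl X (l + 1)), (-(t • Lam (reg X))) u ∈ (Vl X (l + 1)) := by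
    intro u hu
    rw [ContinuousLinearMap.neg_apply, ContinuousLinearMap.smul_apply]
    exact Submodule.neg_mem _ (Submodule.smul_mem _ _
      (lam_mem _ (fun g u hu => reg_mem _ g hu) u hu))
  have hLam2 : ∀ u ∈ (Vl X (l + 1))ᗮ, (-(t • Lam (reg X))) u ∈ (Vl X (l + 1))ᗮ := by
    intro u hu
    rw [ContinuousLinearMap.neg_apply, ContinuousLinearMap.smul_apply]
    exact Submodule.neg_mem _ (Submodule.smul_mem _ _
      (lam_mem _ (fun g u hu => reg_mem_orth _ g hu) u hu))
  have hTw : T w ∈ Vl X (l + 1) := exp_mem _ hLam1 hwV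
  have hTr : T (rem (l + 1) g₀) ∈ (Vl X (l + 1))ᗮ := exp_mem _ hLam2 hremo
  have c1 : ⟪w, T (rem (l + 1) g₀)⟫ = 0 := (Submodule.mem_orthogonal _ _).mp hTr _ hwV
  have c2 : ⟪rem (l + 1) g₀, T w⟫ = 0 := by
    rw [real_inner_comm]
    exact (Submodule.mem_orthogonal _ _).mp hremo _ hTw
  have hexp : ⟪rem l g₀, T (rem l g₀)⟫ = ⟪w, T w⟫ + ⟪rem (l + 1) g₀, T (rem (l + 1) g₀)⟫ := by
    rw [hsplit, map_add, inner_add_left, inner_add_right, inner_add_right, c1, c2]
    ring
  have hle : ⟪w, T w⟫ ≤ Real.exp (-(t * (((l : ℝ) + 1) / 2))) * ‖w‖ ^ 2 :=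
    exp_inner_le (lam_symm (reg X) reg_iso) (Vl X l)ᗮ
      (lam_mem _ (fun g u hu => reg_mem_orth _ g hu)) _ (lam_level l hl) t ht0 hwo
  have hwn : ‖w‖ ^ 2 ≤ ‖(Vl X (l + 1)).starProjection (del g₀)‖ ^ 2 := by
    have hsum : (Vl X (l + 1)).starProjection (del g₀) =
        (Vl X l).starProjection (del g₀) + w := by rw [hw]; abel
    have horth2 : ⟪(Vl X l).starProjection (del g₀), w⟫ = 0 :=
      (Submodule.mem_orthogonal _ _).mp hwo _ (Submodule.starProjection_apply_mem _ _)
    rw [hsum, norm_add_sq_real, horth2]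
    nlinarith [sq_nonneg ‖(Vl X l).starProjection (del g₀)‖]
  have hpb := proj_bound (l + 1) g₀
  have hcard : (0 : ℝ) ≤ (Fintype.card (Perm X) : ℝ) := by positivity
  have hex : Real.exp (-(t * (((l : ℝ) + 1) / 2))) = Real.exp (-(t / 2)) ^ (l + 1) := by
    rw [← Real.exp_nat_mul]
    congr 1
    push_cast
    ring
  rw [hexp, mul_add]
  have : (Fintype.card (Perm X) : ℝ) * ⟪w, T w⟫ ≤
      ((Fintype.card X : ℝ) ^ 2 * Real.exp (-(t / 2))) ^ (l + 1) := by
    calc (Fintype.card (Perm X) : ℝ) * ⟪w, T w⟫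
        ≤ (Fintype.card (Perm X) : ℝ) * (Real.exp (-(t * (((l : ℝ) + 1) / 2))) *
            ‖(Vl X (l + 1)).starProjection (del g₀)‖ ^ 2) := by
          apply mul_le_mul_of_nonneg_left _ hcard
          exact hle.trans (mul_le_mul_of_nonneg_left hwn (Real.exp_pos _).le)
      _ = Real.exp (-(t / 2)) ^ (l + 1) * ((Fintype.card (Perm X) : ℝ) *
            ‖(Vl X (l + 1)).starProjection (del g₀)‖ ^ 2) := by rw [hex]; ring
      _ ≤ Real.exp (-(t / 2)) ^ (l + 1) * ((Fintype.card X : ℝ) ^ 2) ^ (l + 1) :=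
          mul_le_mul_of_nonneg_left hpb (by positivity)
      _ = _ := by rw [mul_pow]; ring
  linarith

end Lev

theorem level_bound [Nonempty X] (t : ℝ) (ht0 : 0 ≤ t)
    (ht : (Fintype.card X : ℝ) ^ 2 * Real.exp (-(t / 2)) ≤ 1 / 5) (g₀ : Perm X) :
    (Fintype.card (Perm X) : ℝ) *
      ⟪delta0 g₀, NormedSpace.exp (-(t • Lam (reg X))) (delta0 g₀)⟫ ≤ 1 / 4 := by
  set T := NormedSpace.exp (-(t • Lam (reg X))) with hT
  set x := (Fintype.card X : ℝ) ^ 2 * Real.exp (-(t / 2)) with hx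
  have hx0 : 0 ≤ x := by positivity
  have key : ∀ j : ℕ, j ≤ Fintype.card X → (Fintype.card (Perm X) : ℝ) *
      ⟪delta0 g₀, T (delta0 g₀)⟫ ≤ (∑ l ∈ Finset.range j, x ^ (l + 1)) +
      (Fintype.card (Perm X) : ℝ) * ⟪Lev.rem j g₀, T (Lev.rem j g₀)⟫ := by
    intro j
    induction j with
    | zero =>
      intro _
      rw [Finset.sum_range_zero, zero_add, Lev.delta0_eq]
    | succ j ih =>
      intro hj
      refine (ih (by omega)).trans ?_
      rw [Finset.sum_range_succ]
      have := Lev.step t ht0 g₀ j (by omega)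
      linarith
  have h1 := key _ le_rfl
  rw [Lev.rem_top] at h1
  simp only [inner_zero_left, mul_zero, add_zero] at h1
  refine h1.trans ?_
  have h2 : ∑ l ∈ Finset.range (Fintype.card X), x ^ (l + 1) ≤
      ∑ l ∈ Finset.range (Fintype.card X), ((1 / 5 : ℝ)) ^ (l + 1) :=
    Finset.sum_le_sum fun l _ => pow_le_pow_left₀ hx0 ht _
  refine h2.trans ?_
  have h3 : ∀ n : ℕ, ∑ l ∈ Finset.range n, ((1 / 5 : ℝ)) ^ (l + 1) = 1 / 4 - 1 / 4 * (1 / 5) ^ n := by
    intro n
    induction n with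
    | zero => simp
    | succ n ih => rw [Finset.sum_range_succ, ih]; ring
  rw [h3]
  have : (0 : ℝ) ≤ 1 / 4 * (1 / 5) ^ (Fintype.card X) := by positivity
  linarith

end Vale.Agent.H16.Thorp
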