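import Mathlib

/-! # P162, row R1: number of words with given parity -/

namespace Vale.Agent.H16.Thorp

open Finset

/-- Number of words of length `j` over `Y` in which exactly the letters of `π` occur an odd
number of times. -/
def wcount {Y : Type*} [Fintype Y] [DecidableEq Y] : ℕ → Finset Y → ℕ
  | 0, π => if π = ∅ then 1 else 0
  | j + 1, π => ∑ z : Y, wcount j (symmDiff π {z})

theorem card_symmDiff_mem {Y : Type*} [DecidableEq Y] (π : Finset Y) (z : Y) (hz : z ∈ π) :
    (symmDiff π {z}).card + 1 = π.card := by
  have h : symmDiff π {z} = π.erase z := by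
    ext y
    simp only [Finset.mem_symmDiff, Finset.mem_singleton, Finset.mem_erase]
    constructor
    · rintro (⟨h1, h2⟩ | ⟨h1, h2⟩)
      · exact ⟨h2, h1⟩
      · subst h1; exact absurd hz h2
    · rintro ⟨h1, h2⟩
      exact Or.inl ⟨h2, h1⟩
  rw [h, Finset.card_erase_add_one hz]

theorem card_symmDiff_not_mem {Y : Type*} [DecidableEq Y] (π : Finset Y) (z : Y) (hz : z ∉ π) :
    (symmDiff π {z}).card = π.card + 1 := by
  have h : symmDiff π {z} = insert z π := by
    ext y
    simp only [Finset.mem_symmDiff, Finset.mem_singleton, Finset.mem_insert]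
    constructor
    · rintro (⟨h1, h2⟩ | ⟨h1, h2⟩)
      · exact Or.inr h1
      · exact Or.inl h1
    · rintro (h1 | h1)
      · subst h1; exact Or.inr ⟨rfl, hz⟩
      · refine Or.inl ⟨h1, ?_⟩
        rintro rfl
        exact hz h1
  rw [h, Finset.card_insert_of_notMem hz]

theorem wcount_bound {Y : Type*} [Fintype Y] [DecidableEq Y] (j : ℕ) : ∀ π : Finset Y,
    (j < π.card → wcount j π = 0) ∧
    (∀ i, j = 2 * i + π.card → wcount j π * (i.factorial * 2 ^ i) ≤
      j.factorial * (Fintype.card Y) ^ i) := by
  induction j with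
  | zero =>
    intro π
    refine ⟨fun h => ?_, fun i hi => ?_⟩
    · have hne : π ≠ ∅ := by
        rintro rfl
        simp at h
      simp [wcount, hne]
    · have h0 : i = 0 := by omega
      have h1 : π.card = 0 := by omega
      have h2 : π = ∅ := Finset.card_eq_zero.1 h1
      subst h0
      simp [wcount, h2]
  | succ j ih =>
    intro π
    refine ⟨fun h => ?_, fun i hi => ?_⟩
    · simp only [wcount]
      refine Finset.sum_eq_zero fun z _ => ?_
      refine (ih _).1 ?_
      by_cases hz : z ∈ π
      · have := card_symmDiff_mem π z hz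
        omega
      · have := card_symmDiff_not_mem π z hz
        omega
    · simp only [wcount]
      have hsplit : ∀ z : Y, wcount j (symmDiff π {z}) * (i.factorial * 2 ^ i) ≤
          (if z ∈ π then j.factorial * (Fintype.card Y) ^ i else 0) +
          (if i = 0 then 0 else (2 * i) * (j.factorial * (Fintype.card Y) ^ (i - 1))) := by
        intro z
        by_cases hz : z ∈ π
        · have hc := card_symmDiff_mem π z hz
          have := (ih (symmDiff π {z})).2 i (by omega)
          rw [if_pos hz]
          exact this.trans (Nat.le_add_right _ _)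
        · have hc := card_symmDiff_not_mem π z hz
          rw [if_neg hz, Nat.zero_add]
          rcases Nat.eq_zero_or_pos i with h0 | hpos
          · subst h0
            rw [if_pos rfl]
            rw [(ih (symmDiff π {z})).1 (by omega)]
            simp
          · obtain ⟨i', rfl⟩ : ∃ i', i = i' + 1 := ⟨i - 1, by omega⟩
            have := (ih (symmDiff π {z})).2 i' (by omega)
            rw [if_neg (by omega), Nat.add_sub_cancel]
            calc wcount j (symmDiff π {z}) * ((i' + 1).factorial * 2 ^ (i' + 1))
                = (2 * (i' + 1)) * (wcount j (symmDiff π {z}) * (i'.factorial * 2 ^ i')) := by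
                  rw [Nat.factorial_succ, pow_succ]; ring
              _ ≤ _ := Nat.mul_le_mul_left _ this
      calc (∑ z : Y, wcount j (symmDiff π {z})) * (i.factorial * 2 ^ i)
          = ∑ z : Y, wcount j (symmDiff π {z}) * (i.factorial * 2 ^ i) := Finset.sum_mul _ _ _
        _ ≤ ∑ z : Y, ((if z ∈ π then j.factorial * (Fintype.card Y) ^ i else 0) +
          (if i = 0 then 0 else (2 * i) * (j.factorial * (Fintype.card Y) ^ (i - 1)))) :=
            Finset.sum_le_sum fun z _ => hsplit z
        _ = π.card * (j.factorial * (Fintype.card Y) ^ i) + (Fintype.card Y) *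
          (if i = 0 then 0 else (2 * i) * (j.factorial * (Fintype.card Y) ^ (i - 1))) := by
            rw [Finset.sum_add_distrib]
            congr 1
            · rw [← Finset.sum_filter]
              simp
            · simp
        _ ≤ (j + 1).factorial * (Fintype.card Y) ^ i := by
            rcases Nat.eq_zero_or_pos i with h0 | hpos
            · subst h0
              rw [if_pos rfl, Nat.factorial_succ]
              have : π.card = j + 1 := by omega
              rw [this]
              simp
            · obtain ⟨i', rfl⟩ : ∃ i', i = i' + 1 := ⟨i - 1, by omega⟩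
              rw [if_neg (by omega), Nat.add_sub_cancel, Nat.factorial_succ]
              have : j + 1 = 2 * (i' + 1) + π.card := hi
              rw [this, pow_succ]
              apply le_of_eq
              ring

theorem words_bound {Y : Type*} [Fintype Y] [DecidableEq Y] (c : ℝ) (hc0 : 0 ≤ c)
    (hc : c ≤ 1 / 4) (π : Finset Y) (hπ : π.card = 2) (n : ℕ) :
    ∑ j ∈ range n, (c / (Fintype.card Y : ℝ)) ^ (j + 2) / ((j + 2).factorial : ℝ) *
      (wcount (2 * j + 2) π : ℝ) ≤ 8 * c ^ 2 / (Fintype.card Y : ℝ) ^ 2 := by
  set m : ℝ := (Fintype.card Y : ℝ) with hm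
  have hm0 : 0 < m := by
    have h2 : 0 < Fintype.card Y := by
      have := Finset.card_le_univ π
      omega
    rw [hm]
    exact_mod_cast h2
  have hterm : ∀ j ∈ range n, (c / m) ^ (j + 2) / ((j + 2).factorial : ℝ) *
      (wcount (2 * j + 2) π : ℝ) ≤ 4 * c ^ 2 / m ^ 2 * (1 / 2) ^ j := by
    intro j _
    have h1 := (wcount_bound (2 * j + 2) π).2 j (by omega)
    have h1' : (wcount (2 * j + 2) π : ℝ) * ((j.factorial : ℝ) * 2 ^ j) ≤
        ((2 * j + 2).factorial : ℝ) * m ^ j := by
      rw [hm]; exact_mod_cast h1
    have hchoose : ((2 * j + 2).factorial : ℝ) ≤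
        4 ^ (j + 1) * ((j + 2).factorial * j.factorial) := by
      have h3 : (2 * j + 2).choose j * j.factorial * (j + 2).factorial = (2 * j + 2).factorial := by
        have := Nat.choose_mul_factorial_mul_factorial (n := 2 * j + 2) (k := j) (by omega)
        rw [show 2 * j + 2 - j = j + 2 by omega] at this
        exact this
      have h4 : (2 * j + 2).choose j ≤ 4 ^ (j + 1) := by
        calc (2 * j + 2).choose j ≤ 2 ^ (2 * j + 2) := Nat.choose_le_two_pow _ _
          _ = 4 ^ (j + 1) := by
            rw [show (4 : ℕ) = 2 ^ 2 by norm_num, ← pow_mul]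
            congr 1
      have h5 : (2 * j + 2).factorial ≤ 4 ^ (j + 1) * ((j + 2).factorial * j.factorial) := by
        rw [← h3]
        calc (2 * j + 2).choose j * j.factorial * (j + 2).factorial
            = (2 * j + 2).choose j * ((j + 2).factorial * j.factorial) := by ring
          _ ≤ _ := Nat.mul_le_mul_right _ h4
      exact_mod_cast h5
    have hf1 : (0 : ℝ) < (j.factorial : ℝ) := by exact_mod_cast Nat.factorial_pos j
    have hf2 : (0 : ℝ) < ((j + 2).factorial : ℝ) := by exact_mod_cast Nat.factorial_pos (j + 2)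
    have hw : (wcount (2 * j + 2) π : ℝ) ≤ 4 ^ (j + 1) * ((j + 2).factorial : ℝ) * m ^ j / 2 ^ j := by
      rw [le_div_iff₀ (by positivity)]
      have h6 : (wcount (2 * j + 2) π : ℝ) * 2 ^ j * (j.factorial : ℝ) ≤
          4 ^ (j + 1) * ((j + 2).factorial : ℝ) * m ^ j * (j.factorial : ℝ) := by
        calc (wcount (2 * j + 2) π : ℝ) * 2 ^ j * (j.factorial : ℝ)
            = (wcount (2 * j + 2) π : ℝ) * ((j.factorial : ℝ) * 2 ^ j) := by ring
          _ ≤ ((2 * j + 2).factorial : ℝ) * m ^ j := h1'
          _ ≤ 4 ^ (j + 1) * ((j + 2).factorial * j.factorial) * m ^ j :=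
              mul_le_mul_of_nonneg_right hchoose (by positivity)
          _ = _ := by ring
      exact le_of_mul_le_mul_right h6 hf1
    calc (c / m) ^ (j + 2) / ((j + 2).factorial : ℝ) * (wcount (2 * j + 2) π : ℝ)
        ≤ (c / m) ^ (j + 2) / ((j + 2).factorial : ℝ) *
          (4 ^ (j + 1) * ((j + 2).factorial : ℝ) * m ^ j / 2 ^ j) :=
          mul_le_mul_of_nonneg_left hw (by positivity)
      _ = 4 * c ^ 2 / m ^ 2 * (2 * c) ^ j := by
          rw [div_pow, mul_pow, show (4 : ℝ) ^ (j + 1) = 4 * (2 ^ j * 2 ^ j) by
            rw [← mul_pow]; norm_num [pow_succ]; ring]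
          rw [pow_add c, pow_add m]
          field_simp
      _ ≤ 4 * c ^ 2 / m ^ 2 * (1 / 2) ^ j := by
          refine mul_le_mul_of_nonneg_left ?_ (by positivity)
          exact pow_le_pow_left₀ (by positivity) (by linarith) j
  calc ∑ j ∈ range n, (c / m) ^ (j + 2) / ((j + 2).factorial : ℝ) *
      (wcount (2 * j + 2) π : ℝ) ≤ ∑ j ∈ range n, 4 * c ^ 2 / m ^ 2 * (1 / 2) ^ j :=
        Finset.sum_le_sum hterm
    _ = 4 * c ^ 2 / m ^ 2 * ∑ j ∈ range n, (1 / 2) ^ j := by rw [Finset.mul_sum]
    _ ≤ 4 * c ^ 2 / m ^ 2 * 2 := by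
        refine mul_le_mul_of_nonneg_left ?_ (by positivity)
        exact (sum_geometric_two_le n)
    _ = _ := by ring

end Vale.Agent.H16.Thorp
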