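import Mathlib
import Vale.Agent.H16.Thorp.Rep
import Vale.Agent.H16.Thorp.Words
import Vale.Agent.H16.Thorp.ExpLem

/-! # P162 (helper16): the key lemma on vectors invariant under the top swaps -/

namespace Vale.Agent.H16.Thorp

open Equiv
open scoped RealInnerProductSpace

variable {V : Type*} [NormedAddCommGroup V] [InnerProductSpace ℝ V]
variable {Y : Type*} [Fintype Y] [DecidableEq Y]

set_option linter.unusedSectionVars false

/-- the interaction operator of the two pairs `z`, `z'` -/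
noncomputable def Lop (ρ : Perm (Bool × Y) →* (V →L[ℝ] V)) (z z' : Y) : V →L[ℝ] V :=
  (1 / 4 : ℝ) • (ρ (swap (false, z) (false, z')) + ρ (swap (true, z) (true, z'))
    - ρ (swap (false, z) (true, z')) - ρ (swap (true, z) (false, z')))

/-- the total interaction -/
noncomputable def Dop (ρ : Perm (Bool × Y) →* (V →L[ℝ] V)) : V →L[ℝ] V :=
  ∑ z : Y, ∑ z' : Y, Lop ρ z z'

theorem half_swap (b : Bool) (z z' : Y) :
    half b (swap z z') = (swap (b, z) (b, z') : Perm (Bool × Y)) := by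
  ext1 x
  rcases x with ⟨a, y⟩
  show (if a = b then (a, swap z z' y) else (a, y)) = swap (b, z) (b, z') (a, y)
  by_cases hab : a = b
  · subst hab
    simp only [if_true]
    by_cases h1 : y = z
    · subst h1; simp
    · by_cases h2 : y = z'
      · subst h2; simp
      · rw [swap_apply_of_ne_of_ne h1 h2, swap_apply_of_ne_of_ne] <;> simp [h1, h2]
  · rw [if_neg hab, swap_apply_of_ne_of_ne] <;> simp [hab]

theorem sw_apply (w : Y) (a : Bool) (z : Y) :
    (swap (false, w) (true, w) : Perm (Bool × Y)) (a, z) = (if w = z then !a else a, z) := by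
  by_cases h : w = z
  · subst h
    cases a <;> simp
  · have h' : z ≠ w := fun hh => h hh.symm
    rw [swap_apply_of_ne_of_ne] <;> simp [h, h']

theorem sw_conj (ρ : Perm (Bool × Y) →* (V →L[ℝ] V)) (w : Y) (a b : Bool) (z z' : Y) (u : V) :
    ρ (swap (false, w) (true, w)) (ρ (swap (a, z) (b, z')) u) =
      ρ (swap (if w = z then !a else a, z) (if w = z' then !b else b, z'))
        (ρ (swap (false, w) (true, w)) u) := by
  rw [← mul_apply_eq_comp, ← map_mul, Equiv.mul_swap_eq_swap_mul, map_mul,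
    mul_apply_eq_comp, sw_apply, sw_apply]

theorem lam_split [Nonempty Y] (ρ : Perm (Bool × Y) →* (V →L[ℝ] V)) :
    Lam (ρ.comp (half false)) + Lam (ρ.comp (half true)) =
      Lam ρ - (1 / (Fintype.card Y : ℝ)) • Dop ρ := by
  have hm : (Fintype.card Y : ℝ) ≠ 0 := by
    have := Fintype.card_pos (α := Y)
    positivity
  unfold Lam Dop
  simp only [MonoidHom.comp_apply, half_swap, Fintype.sum_prod_type, Fintype.sum_bool,
    Fintype.card_prod, Fintype.card_bool]
  simp only [Lop, Finset.smul_sum, ← Finset.sum_add_distrib, ← Finset.sum_sub_distrib]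
  refine Finset.sum_congr rfl fun z _ => ?_
  refine Finset.sum_congr rfl fun z' _ => ?_
  push_cast
  module

/-- parity of a vector -/
def Par (ρ : Perm (Bool × Y) →* (V →L[ℝ] V)) (π : Finset Y) (u : V) : Prop :=
  ∀ w : Y, ρ (swap (false, w) (true, w)) u = (if w ∈ π then (-1 : ℝ) else 1) • u

theorem par_lop (ρ : Perm (Bool × Y) →* (V →L[ℝ] V)) (π : Finset Y) (u : V) (hu : Par ρ π u)
    (z z' : Y) : Par ρ (symmDiff (symmDiff π {z}) {z'}) (Lop ρ z z' u) := by
  intro w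
  have h := hu w
  simp only [Lop, smul_apply, add_apply,
    sub_apply, map_smul, map_add, map_sub, sw_conj, h]
  have e1 : (if w ∈ symmDiff (symmDiff π {z}) {z'} then (-1 : ℝ) else 1) =
      (if w ∈ π then (-1 : ℝ) else 1) * (if w = z then -1 else 1) *
        (if w = z' then -1 else 1) := by
    simp only [Finset.mem_symmDiff, Finset.mem_singleton]
    split_ifs
    all_goals first
      | (exfalso; tauto)
      | norm_num
  rw [e1]
  clear e1 h hu
  split_ifs <;> (try simp only [Bool.not_true, Bool.not_false]) <;> module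

theorem sw_iso_inner (ρ : Perm (Bool × Y) →* (V →L[ℝ] V)) (hρ : ∀ g v, ‖ρ g v‖ = ‖v‖)
    (g : Perm (Bool × Y)) (u v : V) : ⟪ρ g u, ρ g v⟫ = ⟪u, v⟫ := by
  have h1 := real_inner_eq_norm_add_mul_self_sub_norm_mul_self_sub_norm_mul_self_div_two u v
  have h2 := real_inner_eq_norm_add_mul_self_sub_norm_mul_self_sub_norm_mul_self_div_two
    (ρ g u) (ρ g v)
  rw [h1, h2, ← map_add, hρ, hρ, hρ]

theorem lop_norm (ρ : Perm (Bool × Y) →* (V →L[ℝ] V)) (hρ : ∀ g v, ‖ρ g v‖ = ‖v‖)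
    (z z' : Y) (u : V) : ‖Lop ρ z z' u‖ ≤ ‖u‖ := by
  simp only [Lop, smul_apply, add_apply, sub_apply, norm_smul]
  have h := norm_sub_le (ρ (swap (false, z) (false, z')) u + ρ (swap (true, z) (true, z')) u
    - ρ (swap (false, z) (true, z')) u) (ρ (swap (true, z) (false, z')) u)
  have h' := norm_sub_le (ρ (swap (false, z) (false, z')) u + ρ (swap (true, z) (true, z')) u)
    (ρ (swap (false, z) (true, z')) u)
  have h'' := norm_add_le (ρ (swap (false, z) (false, z')) u) (ρ (swap (true, z) (true, z')) u)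
  simp only [hρ] at h h' h''
  rw [Real.norm_of_nonneg (by norm_num)]
  linarith

/-- the parity claim -/
theorem par_bound (ρ : Perm (Bool × Y) →* (V →L[ℝ] V)) (hρ : ∀ g v, ‖ρ g v‖ = ‖v‖)
    (j : ℕ) : ∀ (π π' : Finset Y) (u w : V), Par ρ π u → Par ρ π' w →
      |⟪w, (Dop ρ ^ j) u⟫| ≤ (wcount (2 * j) (symmDiff π π') : ℝ) * ‖u‖ * ‖w‖ := by
  induction j with
  | zero =>
    intro π π' u w hu hw
    simp only [pow_zero, wcount]
    by_cases h : symmDiff π π' = ∅
    · rw [if_pos h]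
      have := abs_real_inner_le_norm w u
      simp
      linarith
    · rw [if_neg h]
      obtain ⟨a, ha⟩ := Finset.nonempty_iff_ne_empty.mpr h
      have h1 := sw_iso_inner ρ hρ (swap (false, a) (true, a)) w u
      rw [hu a, hw a, real_inner_smul_left, real_inner_smul_right] at h1
      have h2 : ⟪w, u⟫ = 0 := by
        rw [Finset.mem_symmDiff] at ha
        rcases ha with ⟨h3, h4⟩ | ⟨h3, h4⟩
        · simp only [h3, h4, if_true, if_false] at h1
          linarith
        · simp only [h3, h4, if_true, if_false] at h1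
          linarith
      simp [h2]
  | succ j ih =>
    intro π π' u w hu hw
    have h1 : (Dop ρ ^ (j + 1)) u = ∑ z : Y, ∑ z' : Y, (Dop ρ ^ j) (Lop ρ z z' u) := by
      have h0 : Dop ρ u = ∑ z : Y, ∑ z' : Y, Lop ρ z z' u := by simp [Dop]
      rw [pow_succ, mul_apply_eq_comp, h0]
      simp only [map_sum]
    rw [h1]
    simp only [inner_sum]
    refine (Finset.abs_sum_le_sum_abs _ _).trans ?_
    have h2 : 2 * (j + 1) = 2 * j + 1 + 1 := by ring
    rw [h2]
    simp only [wcount, Nat.cast_sum]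
    rw [Finset.sum_mul, Finset.sum_mul]
    refine Finset.sum_le_sum fun z _ => ?_
    refine (Finset.abs_sum_le_sum_abs _ _).trans ?_
    rw [Finset.sum_mul, Finset.sum_mul]
    refine Finset.sum_le_sum fun z' _ => ?_
    have h3 := ih _ π' (Lop ρ z z' u) w (par_lop ρ π u hu z z') hw
    have h4 : symmDiff (symmDiff (symmDiff π {z}) {z'}) π' =
      symmDiff (symmDiff (symmDiff π π') {z}) {z'} := by
      ext x
      simp only [Finset.mem_symmDiff, Finset.mem_singleton]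
      tauto
    rw [h4] at h3
    refine h3.trans ?_
    have h5 := lop_norm ρ hρ z z' u
    gcongr

section four

variable {X : Type*} [DecidableEq X]

theorem tri_inner (ρ : Perm X →* (V →L[ℝ] V)) (hρ : ∀ g v, ‖ρ g v‖ = ‖v‖)
    (p r s : X) (hpr : p ≠ r) (hps : p ≠ s) (hrs : r ≠ s) (v : V) (hv : ρ (swap r s) v = v) :
    ⟪ρ (swap p r) v, ρ (swap p s) v⟫ = ⟪v, ρ (swap p s) v⟫ ∧
      ⟪v, ρ (swap p s) v⟫ = ⟪v, ρ (swap p r) v⟫ := by
  have hiso : ∀ (g : Perm X) (u v : V), ⟪ρ g u, ρ g v⟫ = ⟪u, v⟫ := by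
    intro g u v
    have h1 := real_inner_eq_norm_add_mul_self_sub_norm_mul_self_sub_norm_mul_self_div_two u v
    have h2 := real_inner_eq_norm_add_mul_self_sub_norm_mul_self_sub_norm_mul_self_div_two
      (ρ g u) (ρ g v)
    rw [h1, h2, ← map_add, hρ, hρ, hρ]
  constructor
  · have h1 := hiso (swap p r) (ρ (swap p r) v) (ρ (swap p s) v)
    rw [← h1, ← mul_apply_eq_comp, ← mul_apply_eq_comp, ← map_mul, ← map_mul, swap_mul_self,
      map_one]
    have h2 : swap p r * swap p s = swap p s * swap r s := by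
      rw [Equiv.mul_swap_eq_swap_mul (swap p s) r s, swap_apply_right,
        swap_apply_of_ne_of_ne hpr.symm hrs, swap_comm r p]
    rw [h2, map_mul, mul_apply_eq_comp, hv]
    rfl
  · have h1 := hiso (swap r s) v (ρ (swap p r) v)
    rw [← h1, hv, ← mul_apply_eq_comp, ← map_mul]
    have h2 : swap r s * swap p r = swap p s * swap r s := by
      rw [Equiv.mul_swap_eq_swap_mul (swap r s) p r, swap_apply_left,
        swap_apply_of_ne_of_ne hpr hps]
    rw [h2, map_mul, mul_apply_eq_comp, hv]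

end four

theorem lop_diag (ρ : Perm (Bool × Y) →* (V →L[ℝ] V)) (v : V)
    (hv : ∀ z : Y, ρ (swap (false, z) (true, z)) v = v) (z : Y) : Lop ρ z z v = 0 := by
  have h1 : swap ((true, z) : Bool × Y) (false, z) = swap (false, z) (true, z) := swap_comm _ _
  have h2 (a : Bool × Y) : swap a a = (1 : Perm (Bool × Y)) := swap_self a
  simp only [Lop, h1, h2, smul_apply, add_apply, sub_apply, hv, map_one]
  simp

/-- the four point bound -/
theorem lop_sq_le (ρ : Perm (Bool × Y) →* (V →L[ℝ] V)) (hρ : ∀ g v, ‖ρ g v‖ = ‖v‖) (v : V)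
    (hv : ∀ z : Y, ρ (swap (false, z) (true, z)) v = v) (z z' : Y) :
    ‖Lop ρ z z' v‖ ^ 2 ≤ 1 / 8 * (4 * ‖v‖ ^ 2 - (⟪v, ρ (swap (false, z) (false, z')) v⟫ +
      ⟪v, ρ (swap (true, z) (true, z')) v⟫ + ⟪v, ρ (swap (false, z) (true, z')) v⟫ +
      ⟪v, ρ (swap (true, z) (false, z')) v⟫)) := by
  have cs : ∀ g h : Perm (Bool × Y), ⟪ρ g v, ρ h v⟫ ≤ ‖v‖ ^ 2 := by
    intro g h
    refine (real_inner_le_norm _ _).trans ?_
    rw [hρ, hρ]
    exact le_of_eq (by ring)
  have cs1 : ∀ h : Perm (Bool × Y), ⟪v, ρ h v⟫ ≤ ‖v‖ ^ 2 := by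
    intro h
    have := cs 1 h
    rwa [map_one] at this
  by_cases hz : z = z'
  · subst hz
    rw [lop_diag ρ v hv z]
    have h1 := cs1 (swap (false, z) (false, z))
    have h2 := cs1 (swap (true, z) (true, z))
    have h3 := cs1 (swap (false, z) (true, z))
    have h4 := cs1 (swap (true, z) (false, z))
    simp only [norm_zero]
    linarith
  · have hv' : ∀ z : Y, ρ (swap (true, z) (false, z)) v = v := fun z => by
      rw [swap_comm]; exact hv z
    -- P = (false, z), Q = (true, z), R = (false, z'), S = (true, z')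
    have t1 := tri_inner ρ hρ (false, z) (false, z') (true, z') (by simp [hz]) (by simp)
      (by simp) v (hv z')
    have t2 := tri_inner ρ hρ (false, z') (false, z) (true, z) (by simp [Ne.symm hz]) (by simp)
      (by simp) v (hv z)
    have t3 := tri_inner ρ hρ (true, z') (true, z) (false, z) (by simp [Ne.symm hz]) (by simp)
      (by simp) v (hv' z)
    have t4 := tri_inner ρ hρ (true, z) (true, z') (false, z') (by simp [hz]) (by simp)
      (by simp) v (hv' z')
    rw [swap_comm (false, z') (false, z), swap_comm (false, z') (true, z)] at t2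
    rw [swap_comm (true, z') (true, z), swap_comm (true, z') (false, z)] at t3
    have h1 := cs (swap (false, z) (false, z')) (swap (true, z) (true, z'))
    have h2 := cs (swap (false, z) (true, z')) (swap (true, z) (false, z'))
    have n : ‖Lop ρ z z' v‖ ^ 2 = 1 / 16 * (4 * ‖v‖ ^ 2 + 2 * (
        ⟪ρ (swap (false, z) (false, z')) v, ρ (swap (true, z) (true, z')) v⟫ +
        ⟪ρ (swap (false, z) (true, z')) v, ρ (swap (true, z) (false, z')) v⟫ -
        ⟪ρ (swap (false, z) (false, z')) v, ρ (swap (false, z) (true, z')) v⟫ -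
        ⟪ρ (swap (false, z) (false, z')) v, ρ (swap (true, z) (false, z')) v⟫ -
        ⟪ρ (swap (true, z) (true, z')) v, ρ (swap (false, z) (true, z')) v⟫ -
        ⟪ρ (swap (true, z) (true, z')) v, ρ (swap (true, z) (false, z')) v⟫)) := by
      have hn := fun g => hρ g v
      simp only [Lop, smul_apply, add_apply, sub_apply]
      set a := ρ (swap (false, z) (false, z')) v with ha
      set b := ρ (swap (true, z) (true, z')) v with hb
      set c := ρ (swap (false, z) (true, z')) v with hc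
      set d := ρ (swap (true, z) (false, z')) v with hd
      have na : ⟪a, a⟫ = ‖v‖ ^ 2 := by rw [real_inner_self_eq_norm_sq, ha, hρ]
      have nb : ⟪b, b⟫ = ‖v‖ ^ 2 := by rw [real_inner_self_eq_norm_sq, hb, hρ]
      have nc : ⟪c, c⟫ = ‖v‖ ^ 2 := by rw [real_inner_self_eq_norm_sq, hc, hρ]
      have nd : ⟪d, d⟫ = ‖v‖ ^ 2 := by rw [real_inner_self_eq_norm_sq, hd, hρ]
      rw [← real_inner_self_eq_norm_sq]
      simp only [inner_smul_left, inner_smul_right, inner_add_left, inner_add_right,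
        inner_sub_left, inner_sub_right, na, nb, nc, nd, real_inner_comm a b, real_inner_comm a c,
        real_inner_comm a d, real_inner_comm b c, real_inner_comm b d, real_inner_comm c d]
      simp
      ring
    rw [n]
    obtain ⟨t1a, t1b⟩ := t1
    obtain ⟨t2a, t2b⟩ := t2
    obtain ⟨t3a, t3b⟩ := t3
    obtain ⟨t4a, t4b⟩ := t4
    linarith

theorem lam_inner [Nonempty Y] (ρ : Perm (Bool × Y) →* (V →L[ℝ] V)) (hρ : ∀ g v, ‖ρ g v‖ = ‖v‖)
    (v : V) (hv : ∀ z : Y, ρ (swap (false, z) (true, z)) v = v) :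
    ∑ z : Y, ∑ z' : Y, ‖Lop ρ z z' v‖ ^ 2 ≤ (Fintype.card Y : ℝ) / 2 * ⟪v, Lam ρ v⟫ := by
  have hm : (Fintype.card Y : ℝ) ≠ 0 := by
    have := Fintype.card_pos (α := Y)
    positivity
  have h1 : (Fintype.card Y : ℝ) / 2 * ⟪v, Lam ρ v⟫ = ∑ z : Y, ∑ z' : Y,
      1 / 8 * (4 * ‖v‖ ^ 2 - (⟪v, ρ (swap (false, z) (false, z')) v⟫ +
      ⟪v, ρ (swap (true, z) (true, z')) v⟫ + ⟪v, ρ (swap (false, z) (true, z')) v⟫ +
      ⟪v, ρ (swap (true, z) (false, z')) v⟫)) := by
    simp only [Lam, Fintype.sum_prod_type, Fintype.sum_bool, smul_apply, add_apply,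
      sum_apply, inner_smul_right, inner_add_right, inner_sum, sub_apply,
      inner_sub_right, Fintype.card_prod, Fintype.card_bool, one_apply_eq_self,
      real_inner_self_eq_norm_sq, Finset.mul_sum, ← Finset.sum_add_distrib]
    refine Finset.sum_congr rfl fun z _ => ?_
    refine Finset.sum_congr rfl fun z' _ => ?_
    push_cast
    field_simp
    ring
  rw [h1]
  exact Finset.sum_le_sum fun z _ => Finset.sum_le_sum fun z' _ => lop_sq_le ρ hρ v hv z z'

theorem par_empty (ρ : Perm (Bool × Y) →* (V →L[ℝ] V)) (v : V)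
    (hv : ∀ z : Y, ρ (swap (false, z) (true, z)) v = v) : Par ρ ∅ v := by
  intro w
  simp [hv w]

/-- symmetric operators -/
theorem lop_symm (ρ : Perm (Bool × Y) →* (V →L[ℝ] V)) (hρ : ∀ g v, ‖ρ g v‖ = ‖v‖)
    (z z' : Y) (u w : V) : ⟪Lop ρ z z' u, w⟫ = ⟪u, Lop ρ z z' w⟫ := by
  have h : ∀ (p q : Bool × Y) (u w : V), ⟪ρ (swap p q) u, w⟫ = ⟪u, ρ (swap p q) w⟫ := by
    intro p q u w
    have h1 := sw_iso_inner ρ hρ (swap p q) (ρ (swap p q) u) w
    rw [← mul_apply_eq_comp, ← map_mul, swap_mul_self, map_one] at h1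
    rw [← h1]
    rfl
  simp only [Lop, smul_apply, add_apply, sub_apply, inner_smul_left, inner_smul_right,
    inner_add_left, inner_add_right, inner_sub_left, inner_sub_right, h]
  simp

theorem dop_symm (ρ : Perm (Bool × Y) →* (V →L[ℝ] V)) (hρ : ∀ g v, ‖ρ g v‖ = ‖v‖)
    (u w : V) : ⟪Dop ρ u, w⟫ = ⟪u, Dop ρ w⟫ := by
  simp only [Dop, sum_apply, sum_inner, inner_sum, lop_symm ρ hρ]

theorem dop_pow_bound (ρ : Perm (Bool × Y) →* (V →L[ℝ] V)) (hρ : ∀ g v, ‖ρ g v‖ = ‖v‖)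
    (v : V) (hv : ∀ z : Y, ρ (swap (false, z) (true, z)) v = v) (k : ℕ) :
    |⟪v, (Dop ρ ^ (k + 2)) v⟫| ≤ ∑ z : Y, ∑ z' : Y, ‖Lop ρ z z' v‖ ^ 2 *
      (wcount (2 * k + 2) (symmDiff {z} {z'}) : ℝ) := by
  have h1 : ⟪v, (Dop ρ ^ (k + 2)) v⟫ = ∑ a : Y × Y, ∑ b : Y × Y,
      ⟪Lop ρ a.1 a.2 v, (Dop ρ ^ k) (Lop ρ b.1 b.2 v)⟫ := by
    have e1 : Dop ρ ^ (k + 2) = Dop ρ * (Dop ρ ^ k * Dop ρ) := by
      rw [← pow_succ, ← pow_succ']
    have e2 : Dop ρ v = ∑ b : Y × Y, Lop ρ b.1 b.2 v := by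
      rw [Fintype.sum_prod_type]
      simp only [Dop, sum_apply]
    rw [e1, mul_apply_eq_comp, mul_apply_eq_comp, ← dop_symm ρ hρ, e2]
    simp only [map_sum, sum_inner, inner_sum]
    rw [Finset.sum_comm]
  have par : ∀ a : Y × Y, Par ρ (symmDiff {a.1} {a.2}) (Lop ρ a.1 a.2 v) := by
    intro a
    have := par_lop ρ ∅ v (par_empty ρ v hv) a.1 a.2
    have e0 : symmDiff (∅ : Finset Y) {a.1} = {a.1} := by
      ext x
      simp [Finset.mem_symmDiff]
    rwa [e0] at this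
  have h2 : ∀ a b : Y × Y, |⟪Lop ρ a.1 a.2 v, (Dop ρ ^ k) (Lop ρ b.1 b.2 v)⟫| ≤
      1 / 2 * (‖Lop ρ a.1 a.2 v‖ ^ 2 *
        (wcount (2 * k) (symmDiff (symmDiff (symmDiff {a.1} {a.2}) {b.1}) {b.2}) : ℝ)) +
      1 / 2 * (‖Lop ρ b.1 b.2 v‖ ^ 2 *
        (wcount (2 * k) (symmDiff (symmDiff (symmDiff {b.1} {b.2}) {a.1}) {a.2}) : ℝ)) := by
    intro a b
    have h3 := par_bound ρ hρ k _ _ _ _ (par b) (par a)
    have e1 : symmDiff (symmDiff ({b.1} : Finset Y) {b.2}) (symmDiff {a.1} {a.2}) =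
      symmDiff (symmDiff (symmDiff {b.1} {b.2}) {a.1}) {a.2} := by
      rw [symmDiff_assoc (symmDiff ({b.1} : Finset Y) {b.2})]
    have e2 : symmDiff (symmDiff (symmDiff ({b.1} : Finset Y) {b.2}) {a.1}) {a.2} =
        symmDiff (symmDiff (symmDiff {a.1} {a.2}) {b.1}) {b.2} := by
      ext x
      simp only [Finset.mem_symmDiff, Finset.mem_singleton]
      tauto
    rw [e1] at h3
    rw [← e2]
    refine h3.trans ?_
    have h4 := two_mul_le_add_sq ‖Lop ρ a.1 a.2 v‖ ‖Lop ρ b.1 b.2 v‖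
    have h5 : (0 : ℝ) ≤ (wcount (2 * k) (symmDiff (symmDiff (symmDiff ({b.1} : Finset Y) {b.2}) {a.1})
      {a.2}) : ℝ) := Nat.cast_nonneg _
    nlinarith
  have h3 : |⟪v, (Dop ρ ^ (k + 2)) v⟫| ≤ ∑ a : Y × Y, ∑ b : Y × Y,
      (1 / 2 * (‖Lop ρ a.1 a.2 v‖ ^ 2 *
        (wcount (2 * k) (symmDiff (symmDiff (symmDiff {a.1} {a.2}) {b.1}) {b.2}) : ℝ)) +
      1 / 2 * (‖Lop ρ b.1 b.2 v‖ ^ 2 *
        (wcount (2 * k) (symmDiff (symmDiff (symmDiff {b.1} {b.2}) {a.1}) {a.2}) : ℝ))) := by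
    rw [h1]
    refine (Finset.abs_sum_le_sum_abs _ _).trans (Finset.sum_le_sum fun a _ => ?_)
    exact (Finset.abs_sum_le_sum_abs _ _).trans (Finset.sum_le_sum fun b _ => h2 a b)
  refine h3.trans (le_of_eq ?_)
  simp only [Finset.sum_add_distrib]
  have h4 : ∀ f : Y × Y → Y × Y → ℝ, ∑ a, ∑ b, f b a = ∑ a, ∑ b, f a b := fun f =>
    Finset.sum_comm
  rw [h4 (fun a b => 1 / 2 * (‖Lop ρ a.1 a.2 v‖ ^ 2 *
        (wcount (2 * k) (symmDiff (symmDiff (symmDiff {a.1} {a.2}) {b.1}) {b.2}) : ℝ)))]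
  simp only [← Finset.mul_sum]
  rw [← add_mul]
  norm_num
  rw [Fintype.sum_prod_type]
  refine Finset.sum_congr rfl fun z _ => Finset.sum_congr rfl fun z' _ => ?_
  rw [Fintype.sum_prod_type]
  congr 1
  show _ = ((wcount (2 * k + 1 + 1) (symmDiff {z} {z'}) : ℕ) : ℝ)
  simp only [wcount, Nat.cast_sum]

theorem dop_one (ρ : Perm (Bool × Y) →* (V →L[ℝ] V)) (hρ : ∀ g v, ‖ρ g v‖ = ‖v‖)
    (v : V) (hv : ∀ z : Y, ρ (swap (false, z) (true, z)) v = v) : ⟪v, Dop ρ v⟫ = 0 := by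
  simp only [Dop, sum_apply, inner_sum]
  refine Finset.sum_eq_zero fun z _ => Finset.sum_eq_zero fun z' _ => ?_
  by_cases h : z = z'
  · subst h
    rw [lop_diag ρ v hv z, inner_zero_right]
  · have h1 := par_bound ρ hρ 0 _ _ _ _ (par_lop ρ ∅ v (par_empty ρ v hv) z z')
      (par_empty ρ v hv)
    have h2 : symmDiff (symmDiff (symmDiff (∅ : Finset Y) {z}) {z'}) ∅ ≠ ∅ := by
      intro h3
      have h4 : z ∈ symmDiff (symmDiff (symmDiff (∅ : Finset Y) {z}) {z'}) ∅ := by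
        simp [Finset.mem_symmDiff, h]
      rw [h3] at h4
      simp at h4
    have h3 : wcount (2 * 0) (symmDiff (symmDiff (symmDiff (∅ : Finset Y) {z}) {z'}) ∅) = 0 := by
      show (if _ = ∅ then 1 else 0) = 0
      rw [if_neg h2]
    rw [h3] at h1
    simp only [pow_zero, Nat.cast_zero, zero_mul] at h1
    exact abs_eq_zero.mp (le_antisymm h1 (abs_nonneg _))

section keyl

variable [CompleteSpace V]

theorem exp_conj {S T : V →L[ℝ] V} (hS : Symm S) (hST : Commute S T) (v : V) :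
    ⟪NormedSpace.exp ((1 / 2 : ℝ) • S) v, NormedSpace.exp T (NormedSpace.exp ((1 / 2 : ℝ) • S) v)⟫ =
      ⟪v, NormedSpace.exp (S + T) v⟫ := by
  have h1 : NormedSpace.exp (S + T) = NormedSpace.exp ((1 / 2 : ℝ) • S) *
      (NormedSpace.exp T * NormedSpace.exp ((1 / 2 : ℝ) • S)) := by
    have e1 : Commute ((1 / 2 : ℝ) • S) T := hST.smul_left _
    have e2 : S + T = ((1 / 2 : ℝ) • S) + (T + (1 / 2 : ℝ) • S) := by module
    let _ : NormedAlgebra ℚ (V →L[ℝ] V) := NormedAlgebra.restrictScalars ℚ ℝ (V →L[ℝ] V)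
    rw [e2, NormedSpace.exp_add_of_commute (e1.add_right (Commute.refl _)),
      NormedSpace.exp_add_of_commute e1.symm]
  rw [h1, mul_apply_eq_comp, mul_apply_eq_comp, exp_symm (hS.smul _)]

theorem key_lemma [Nonempty Y] (ρ : Perm (Bool × Y) →* (V →L[ℝ] V)) (hρ : ∀ g v, ‖ρ g v‖ = ‖v‖)
    (c : ℝ) (hc0 : 0 ≤ c) (hc : c ≤ 1 / 4) (v : V)
    (hv : ∀ z : Y, ρ (swap (false, z) (true, z)) v = v) :
    ⟪v, NormedSpace.exp (-(c • (Lam (ρ.comp (half false)) + Lam (ρ.comp (half true))))) v⟫ ≤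
      ⟪v, NormedSpace.exp (-((c - 4 * c ^ 2 / (Fintype.card Y : ℝ)) • Lam ρ)) v⟫ := by
  have hm : (0 : ℝ) < (Fintype.card Y : ℝ) := by
    have := Fintype.card_pos (α := Y)
    positivity
  set m : ℝ := (Fintype.card Y : ℝ) with hmdef
  have hsymm := lam_symm ρ hρ
  have hcomm : Commute (Lam ρ) (Dop ρ) := by
    unfold Dop
    refine Commute.sum_right _ _ _ fun z _ => Commute.sum_right _ _ _ fun z' _ => ?_
    unfold Lop
    exact Commute.smul_right ((((lam_comm ρ _).add_right (lam_comm ρ _)).sub_right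
      (lam_comm ρ _)).sub_right (lam_comm ρ _)) _
  have hS : Symm (-(c • Lam ρ)) := by
    have := hsymm.smul (-c)
    rwa [neg_smul] at this
  set w := NormedSpace.exp ((1 / 2 : ℝ) • (-(c • Lam ρ))) v with hw
  have hwv : ∀ z : Y, ρ (swap (false, z) (true, z)) w = w := by
    intro z
    have h1 : Commute (ρ (swap (false, z) (true, z)))
        (NormedSpace.exp ((1 / 2 : ℝ) • (-(c • Lam ρ)))) := by
      refine Commute.exp_right ?_
      exact ((((lam_comm ρ _).symm).smul_right _).neg_right).smul_right _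
    rw [hw, ← mul_apply_eq_comp, h1.eq, mul_apply_eq_comp, hv]
  have e1 : -(c • (Lam (ρ.comp (half false)) + Lam (ρ.comp (half true)))) =
      -(c • Lam ρ) + (c / m) • Dop ρ := by
    rw [lam_split]
    module
  have e2 : -((c - 4 * c ^ 2 / m) • Lam ρ) = -(c • Lam ρ) + (4 * c ^ 2 / m) • Lam ρ := by
    module
  have c1 : Commute (-(c • Lam ρ)) ((c / m) • Dop ρ) :=
    (((hcomm.smul_left _).neg_left)).smul_right _
  have c2 : Commute (-(c • Lam ρ)) ((4 * c ^ 2 / m) • Lam ρ) :=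
    ((((Commute.refl (Lam ρ)).smul_left _).neg_left)).smul_right _
  rw [e1, e2, ← exp_conj hS c1, ← exp_conj hS c2, ← hw]
  -- now compare at `w`
  have hge := exp_inner_ge hsymm ⊤ (by simp) (fun u _ => lam_nonneg ρ hρ u) (4 * c ^ 2 / m)
    (by positivity) (u := w) Submodule.mem_top
  refine le_trans ?_ hge
  have hs := exp_inner_hasSum ((c / m) • Dop ρ) w w
  have ht := (Filter.tendsto_add_atTop_iff_nat 2).mpr hs.tendsto_sum_nat
  refine le_of_tendsto' ht fun n => ?_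
  rw [Finset.sum_range_succ', Finset.sum_range_succ']
  have f0 : 1 / (((0 : ℕ).factorial : ℕ) : ℝ) * ⟪w, (((c / m) • Dop ρ) ^ 0) w⟫ = ‖w‖ ^ 2 := by
    simp
  have f1 : 1 / (((0 + 1 : ℕ).factorial : ℕ) : ℝ) * ⟪w, (((c / m) • Dop ρ) ^ (0 + 1)) w⟫ = 0 := by
    simp [inner_smul_right, dop_one ρ hρ w hwv]
  rw [f0, f1]
  have f2 : ∀ j : ℕ, 1 / (((j + 1 + 1 : ℕ).factorial : ℕ) : ℝ) *
      ⟪w, (((c / m) • Dop ρ) ^ (j + 1 + 1)) w⟫ ≤ ∑ z : Y, ∑ z' : Y, ‖Lop ρ z z' w‖ ^ 2 *
        ((c / m) ^ (j + 2) / ((j + 2).factorial : ℝ) *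
          (wcount (2 * j + 2) (symmDiff {z} {z'}) : ℝ)) := by
    intro j
    have h1 := (le_abs_self _).trans (dop_pow_bound ρ hρ w hwv j)
    rw [smul_pow, smul_apply, inner_smul_right]
    have h2 : 1 / (((j + 1 + 1 : ℕ).factorial : ℕ) : ℝ) * ((c / m) ^ (j + 1 + 1) *
        ⟪w, (Dop ρ ^ (j + 1 + 1)) w⟫) ≤ (c / m) ^ (j + 2) / ((j + 2).factorial : ℝ) *
        ∑ z : Y, ∑ z' : Y, ‖Lop ρ z z' w‖ ^ 2 *
          (wcount (2 * j + 2) (symmDiff {z} {z'}) : ℝ) := by
      have h3 : 0 ≤ (c / m) ^ (j + 2) / ((j + 2).factorial : ℝ) := by positivity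
      have h4 := mul_le_mul_of_nonneg_left h1 h3
      refine le_trans (le_of_eq ?_) h4
      show 1 / (((j + 2 : ℕ).factorial : ℕ) : ℝ) * ((c / m) ^ (j + 2) *
        ⟪w, (Dop ρ ^ (j + 2)) w⟫) = _
      ring
    refine h2.trans (le_of_eq ?_)
    rw [Finset.mul_sum]
    refine Finset.sum_congr rfl fun z _ => ?_
    rw [Finset.mul_sum]
    refine Finset.sum_congr rfl fun z' _ => ?_
    ring
  have f3 : ∑ j ∈ Finset.range n, (1 / (((j + 1 + 1 : ℕ).factorial : ℕ) : ℝ) *
      ⟪w, (((c / m) • Dop ρ) ^ (j + 1 + 1)) w⟫) ≤ 4 * c ^ 2 / m * ⟪w, Lam ρ w⟫ := by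
    refine (Finset.sum_le_sum fun j _ => f2 j).trans ?_
    rw [Finset.sum_comm]
    have g1 : ∀ z : Y, ∑ j ∈ Finset.range n, ∑ z' : Y, ‖Lop ρ z z' w‖ ^ 2 *
        ((c / m) ^ (j + 2) / ((j + 2).factorial : ℝ) *
          (wcount (2 * j + 2) (symmDiff {z} {z'}) : ℝ)) ≤
        ∑ z' : Y, ‖Lop ρ z z' w‖ ^ 2 * (8 * c ^ 2 / m ^ 2) := by
      intro z
      rw [Finset.sum_comm]
      refine Finset.sum_le_sum fun z' _ => ?_
      rw [← Finset.mul_sum]
      by_cases h : z = z'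
      · subst h
        rw [lop_diag ρ w hwv z]
        simp
      · have hcard : (symmDiff ({z} : Finset Y) {z'}).card = 2 := by
          have : symmDiff ({z} : Finset Y) {z'} = {z, z'} := by
            ext x
            simp only [Finset.mem_symmDiff, Finset.mem_singleton, Finset.mem_insert]
            constructor
            · tauto
            · rintro (rfl | rfl)
              · left; exact ⟨rfl, h⟩
              · right; exact ⟨rfl, fun hh => h hh.symm⟩
          rw [this, Finset.card_pair h]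
        have hb := words_bound c hc0 hc _ hcard n
        exact mul_le_mul_of_nonneg_left hb (by positivity)
    refine (Finset.sum_le_sum fun z _ => g1 z).trans ?_
    have g2 := lam_inner ρ hρ w hwv
    simp only [← Finset.sum_mul]
    calc (∑ z : Y, ∑ z' : Y, ‖Lop ρ z z' w‖ ^ 2) * (8 * c ^ 2 / m ^ 2)
        ≤ (m / 2 * ⟪w, Lam ρ w⟫) * (8 * c ^ 2 / m ^ 2) :=
          mul_le_mul_of_nonneg_right g2 (by positivity)
      _ = 4 * c ^ 2 / m * ⟪w, Lam ρ w⟫ := by field_simp; ring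
  linarith

end keyl

end Vale.Agent.H16.Thorp
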