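import Mathlib
import Vale.Agent.H16.Thorp.Rep
import Vale.Agent.H16.Thorp.Key

/-! # P162 (helper16): one pass contracts at least like `exp (-Lam/32)` -/

namespace Vale.Agent.H16.Thorp

open Equiv
open scoped RealInnerProductSpace

variable {V : Type*} [NormedAddCommGroup V] [InnerProductSpace ℝ V]

section general

variable {X : Type*} [Fintype X] [DecidableEq X]

theorem lam_commute_of (ρ : Perm X →* (V →L[ℝ] V)) (T : V →L[ℝ] V)
    (h : ∀ g, Commute T (ρ g)) : Commute T (Lam ρ) := by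
  unfold Lam
  refine Commute.smul_right (Commute.sum_right _ _ _ fun p _ => Commute.sum_right _ _ _
    fun q _ => ?_) _
  exact (Commute.one_right T).sub_right (h _)

variable [CompleteSpace V]

/-- monotonicity of the semigroup -/
theorem exp_lam_mono (ρ : Perm X →* (V →L[ℝ] V)) (hρ : ∀ g v, ‖ρ g v‖ = ‖v‖) (a b : ℝ)
    (hab : a ≤ b) (v : V) :
    ⟪v, NormedSpace.exp (-(b • Lam ρ)) v⟫ ≤ ⟪v, NormedSpace.exp (-(a • Lam ρ)) v⟫ := by
  have hsymm := lam_symm ρ hρ
  have hS : Symm (-(b • Lam ρ)) := by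
    have := hsymm.smul (-b)
    rwa [neg_smul] at this
  have c2 : Commute (-(b • Lam ρ)) ((b - a) • Lam ρ) :=
    ((((Commute.refl (Lam ρ)).smul_left _).neg_left)).smul_right _
  have e : -(a • Lam ρ) = -(b • Lam ρ) + (b - a) • Lam ρ := by module
  rw [e, ← exp_conj hS c2, exp_inner_eq_norm hS]
  have hge := exp_inner_ge hsymm ⊤ (by simp) (fun u _ => lam_nonneg ρ hρ u) (b - a)
    (by linarith) (u := NormedSpace.exp ((1 / 2 : ℝ) • (-(b • Lam ρ))) v) Submodule.mem_top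
  have h0 := lam_nonneg ρ hρ (NormedSpace.exp ((1 / 2 : ℝ) • (-(b • Lam ρ))) v)
  have h1 : 0 ≤ (b - a) * ⟪NormedSpace.exp ((1 / 2 : ℝ) • (-(b • Lam ρ))) v,
    Lam ρ (NormedSpace.exp ((1 / 2 : ℝ) • (-(b • Lam ρ))) v)⟫ :=
    mul_nonneg (by linarith) h0
  linarith

end general

section step

variable {Y : Type*} [Fintype Y] [DecidableEq Y]

set_option linter.unusedSectionVars false

theorem swap_topSwap (z : Y) (s : Y → Bool) :
    swap (false, z) (true, z) * topSwap s = topSwap (fun y => xor (s y) (decide (y = z))) := by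
  ext1 x
  rcases x with ⟨a, y⟩
  rw [Perm.mul_apply]
  show (swap (false, z) (true, z) : Perm (Bool × Y)) (xor a (s y), y) = _
  rw [sw_apply]
  show _ = (xor a (xor (s y) (decide (y = z))), y)
  by_cases h : z = y
  · subst h
    cases a <;> cases s z <;> simp
  · have h' : ¬ y = z := fun hh => h hh.symm
    cases a <;> cases s y <;> simp [h, h']

theorem ptop_fixed (ρ : Perm (Bool × Y) →* (V →L[ℝ] V)) (z : Y) (v : V) :
    ρ (swap (false, z) (true, z)) (Ptop ρ v) = Ptop ρ v := by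
  rw [← mul_apply_eq_comp]
  congr 1
  unfold Ptop
  rw [mul_smul_comm, Finset.mul_sum]
  congr 1
  simp only [← map_mul, swap_topSwap]
  refine Fintype.sum_bijective (fun s : Y → Bool => fun y => xor (s y) (decide (y = z))) ?_ _ _
    (fun s => rfl)
  refine Function.Involutive.bijective ?_
  intro s
  funext y
  simp

theorem ptop_norm (ρ : Perm (Bool × Y) →* (V →L[ℝ] V)) (hρ : ∀ g v, ‖ρ g v‖ = ‖v‖) (v : V) :
    ‖Ptop ρ v‖ ≤ ‖v‖ := by
  unfold Ptop
  rw [smul_apply, sum_apply, norm_smul, Real.norm_of_nonneg (by positivity)]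
  have h1 : ‖∑ s : Y → Bool, ρ (topSwap s) v‖ ≤ 2 ^ (Fintype.card Y) * ‖v‖ := by
    refine (norm_sum_le _ _).trans ?_
    simp only [hρ, Finset.sum_const, Finset.card_univ, Fintype.card_fun, Fintype.card_bool,
      nsmul_eq_mul]
    push_cast
    exact le_rfl
  calc 1 / 2 ^ (Fintype.card Y) * ‖∑ s : Y → Bool, ρ (topSwap s) v‖
      ≤ 1 / 2 ^ (Fintype.card Y) * (2 ^ (Fintype.card Y) * ‖v‖) := by gcongr
    _ = ‖v‖ := by field_simp

theorem ptop_commute_of (ρ : Perm (Bool × Y) →* (V →L[ℝ] V)) (T : V →L[ℝ] V)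
    (h : ∀ g, Commute T (ρ g)) : Commute T (Ptop ρ) := by
  unfold Ptop
  exact Commute.smul_right (Commute.sum_right _ _ _ fun s _ => h _) _

theorem half_comm (g h : Perm Y) : Commute (half true g) (half false h) := by
  show half true g * half false h = half false h * half true g
  ext1 x
  rcases x with ⟨a, y⟩
  rw [Perm.mul_apply, Perm.mul_apply]
  cases a <;> simp [half]

variable [CompleteSpace V]

theorem pass_step [Nonempty Y] (ρ : Perm (Bool × Y) →* (V →L[ℝ] V)) (hρ : ∀ g v, ‖ρ g v‖ = ‖v‖)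
    (A B : V →L[ℝ] V) (c c' : ℝ) (hc0 : 0 ≤ c) (hc : c ≤ 1 / 4)
    (hc' : c' ≤ c - 4 * c ^ 2 / (Fintype.card Y : ℝ))
    (hA : ∀ u, ‖A u‖ ^ 2 ≤ ⟪u, NormedSpace.exp (-(c • Lam (ρ.comp (half false)))) u⟫)
    (hB : ∀ u, ‖B u‖ ^ 2 ≤ ⟪u, NormedSpace.exp (-(c • Lam (ρ.comp (half true)))) u⟫)
    (hBc : ∀ T : V →L[ℝ] V, (∀ g, Commute T ((ρ.comp (half true)) g)) → Commute T B) (v : V) :
    ‖(A * B * Ptop ρ) v‖ ^ 2 ≤ ⟪v, NormedSpace.exp (-(c' • Lam ρ)) v⟫ := by
  have hρf : ∀ (g : Perm Y) (v : V), ‖(ρ.comp (half false)) g v‖ = ‖v‖ := fun g v => hρ _ v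
  have hρt : ∀ (g : Perm Y) (v : V), ‖(ρ.comp (half true)) g v‖ = ‖v‖ := fun g v => hρ _ v
  set Lf := Lam (ρ.comp (half false)) with hLf
  set Lt := Lam (ρ.comp (half true)) with hLt
  have sf : Symm (-(c • Lf)) := by
    have := (lam_symm _ hρf).smul (-c)
    rwa [neg_smul] at this
  have comm1 : ∀ g, Commute Lf ((ρ.comp (half true)) g) := by
    intro g
    refine (lam_commute_of _ _ fun h => ?_).symm
    show ρ (half true g) * ρ (half false h) = ρ (half false h) * ρ (half true g)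
    rw [← map_mul, ← map_mul, (half_comm g h).eq]
  have comm2 : Commute Lf Lt := lam_commute_of _ _ comm1
  have comm3 : Commute (NormedSpace.exp ((1 / 2 : ℝ) • (-(c • Lf)))) B := by
    refine hBc _ fun g => ?_
    exact Commute.exp_left ((((comm1 g).smul_left _).neg_left).smul_left _)
  set w := Ptop ρ v with hw
  have hwv : ∀ z : Y, ρ (swap (false, z) (true, z)) w = w := fun z => ptop_fixed ρ z v
  have h1 : ‖(A * B * Ptop ρ) v‖ ^ 2 ≤ ⟪w, NormedSpace.exp (-(c • (Lf + Lt))) w⟫ := by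
    rw [mul_apply_eq_comp, mul_apply_eq_comp, ← hw]
    refine (hA _).trans ?_
    rw [exp_inner_eq_norm sf, ← mul_apply_eq_comp, comm3.eq, mul_apply_eq_comp]
    refine (hB _).trans ?_
    rw [exp_conj sf (((comm2.smul_left _).neg_left).smul_right c).neg_right]
    refine le_of_eq ?_
    congr 3
    module
  have h2 := key_lemma ρ hρ c hc0 hc w hwv
  have h3 := exp_lam_mono ρ hρ _ _ hc' w
  refine h1.trans (h2.trans (h3.trans ?_))
  have hS : Symm (-(c' • Lam ρ)) := by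
    have := (lam_symm ρ hρ).smul (-c')
    rwa [neg_smul] at this
  rw [exp_inner_eq_norm hS, exp_inner_eq_norm hS]
  have comm4 : Commute (NormedSpace.exp ((1 / 2 : ℝ) • (-(c' • Lam ρ)))) (Ptop ρ) := by
    refine ptop_commute_of _ _ fun g => ?_
    exact Commute.exp_left ((((lam_comm ρ g).smul_left _).neg_left).smul_left _)
  rw [hw, ← mul_apply_eq_comp, comm4.eq, mul_apply_eq_comp]
  have := ptop_norm ρ hρ (NormedSpace.exp ((1 / 2 : ℝ) • (-(c' • Lam ρ))) v)
  gcongr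

end step

theorem theta_commute_of (d : ℕ) : ∀ (ρ : Perm (Cube d) →* (V →L[ℝ] V)) (T : V →L[ℝ] V),
    (∀ g, Commute T (ρ g)) → Commute T (Theta d ρ) := by
  induction d with
  | zero => intro ρ T h; exact Commute.one_right T
  | succ d ih =>
    intro ρ T h
    show Commute T (Theta d (ρ.comp (half (Y := Cube d) false)) *
      Theta d (ρ.comp (half (Y := Cube d) true)) * Ptop (Y := Cube d) ρ)
    exact ((ih _ T fun g => h _).mul_right (ih _ T fun g => h _)).mul_right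
      (ptop_commute_of (Y := Cube d) ρ T h)

variable [CompleteSpace V]

theorem theta_contract_aux (d : ℕ) : ∀ (ρ : Perm (Cube d) →* (V →L[ℝ] V))
    (_ : ∀ g v, ‖ρ g v‖ = ‖v‖) (v : V),
    ‖Theta d ρ v‖ ^ 2 ≤
      ⟪v, NormedSpace.exp (-(((1 + 1 / 2 ^ d) / 32 : ℝ) • Lam ρ)) v⟫ := by
  induction d with
  | zero =>
    intro ρ hρ v
    have h0 : Lam ρ = 0 := by
      unfold Lam
      have : ∀ p q : Cube 0, (1 : V →L[ℝ] V) - ρ (swap p q) = 0 := by
        intro p q
        have hpq : p = q := rfl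
        subst hpq
        have : swap p p = (1 : Perm (Cube 0)) := swap_self p
        rw [this, map_one, sub_self]
      simp [this]
    rw [h0]
    show ‖v‖ ^ 2 ≤ _
    simp
  | succ d ih =>
    intro ρ hρ v
    have hp : (0 : ℝ) < 1 / 2 ^ d := by positivity
    have hp1 : (1 : ℝ) / 2 ^ d ≤ 1 := by
      rw [div_le_one (by positivity)]
      exact one_le_pow₀ (by norm_num)
    refine pass_step (Y := Cube d) ρ hρ _ _ ((1 + 1 / 2 ^ d) / 32 : ℝ) _ (by positivity)
      (by linarith) ?_ (fun u => ih _ (fun g v => hρ _ v) u) (fun u => ih _ (fun g v => hρ _ v) u)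
      (fun T hT => theta_commute_of d _ T hT) v
    rw [card_cube]
    push_cast
    have e : (1 : ℝ) / 2 ^ (d + 1) = (1 / 2 ^ d) / 2 := by rw [pow_succ]; field_simp
    rw [e]
    have e2 : 4 * ((1 + 1 / 2 ^ d) / 32 : ℝ) ^ 2 / 2 ^ d =
      4 * ((1 + 1 / 2 ^ d) / 32 : ℝ) ^ 2 * (1 / 2 ^ d) := by ring
    rw [e2]
    set x : ℝ := 1 / 2 ^ d
    nlinarith [mul_nonneg hp.le (by linarith : (0:ℝ) ≤ 1 - x),
      mul_nonneg (mul_nonneg hp.le hp.le) (by linarith : (0:ℝ) ≤ 1 - x)]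

theorem theta_contract (d : ℕ) (ρ : Perm (Cube d) →* (V →L[ℝ] V)) (hρ : ∀ g v, ‖ρ g v‖ = ‖v‖)
    (v : V) :
    ‖Theta d ρ v‖ ^ 2 ≤ ⟪v, NormedSpace.exp (-((1 / 32 : ℝ) • Lam ρ)) v⟫ := by
  refine (theta_contract_aux d ρ hρ v).trans (exp_lam_mono ρ hρ _ _ ?_ v)
  have hp : (0 : ℝ) < 1 / 2 ^ d := by positivity
  linarith

/-- iterated form -/
theorem theta_iter (d : ℕ) (ρ : Perm (Cube d) →* (V →L[ℝ] V)) (hρ : ∀ g v, ‖ρ g v‖ = ‖v‖)
    (g : Perm (Cube d)) (k : ℕ) (v : V) :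
    ‖((Theta d ρ * ρ g) ^ k) v‖ ^ 2 ≤
      ⟪v, NormedSpace.exp (-(((k : ℝ) / 32) • Lam ρ)) v⟫ := by
  induction k generalizing v with
  | zero => simp
  | succ k ih =>
    have hS : Symm (-(((k : ℝ) / 32) • Lam ρ)) := by
      have := (lam_symm ρ hρ).smul (-((k : ℝ) / 32))
      rwa [neg_smul] at this
    rw [pow_succ (Theta d ρ * ρ g) k, mul_apply_eq_comp]
    refine (ih _).trans ?_
    rw [exp_inner_eq_norm hS]
    have cE : ∀ h, Commute (NormedSpace.exp ((1 / 2 : ℝ) • (-(((k : ℝ) / 32) • Lam ρ)))) (ρ h) :=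
      fun h => Commute.exp_left ((((lam_comm ρ h).smul_left _).neg_left).smul_left _)
    have cE2 : ∀ h, Commute (NormedSpace.exp (-((1 / 32 : ℝ) • Lam ρ))) (ρ h) :=
      fun h => Commute.exp_left ((((lam_comm ρ h).smul_left _).neg_left))
    have c1 := (theta_commute_of d ρ _ cE).mul_right (cE g)
    rw [← mul_apply_eq_comp, c1.eq, mul_apply_eq_comp, mul_apply_eq_comp]
    refine (theta_contract d ρ hρ _).trans ?_
    have hiso : ∀ (u v : V), ⟪ρ g u, ρ g v⟫ = ⟪u, v⟫ := by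
      intro u v
      have h1 := real_inner_eq_norm_add_mul_self_sub_norm_mul_self_sub_norm_mul_self_div_two u v
      have h2 := real_inner_eq_norm_add_mul_self_sub_norm_mul_self_sub_norm_mul_self_div_two
        (ρ g u) (ρ g v)
      rw [h1, h2, ← map_add, hρ, hρ, hρ]
    rw [← mul_apply_eq_comp (NormedSpace.exp (-((1 / 32 : ℝ) • Lam ρ))), (cE2 g).eq,
      mul_apply_eq_comp, hiso]
    rw [exp_conj hS]
    · refine le_of_eq ?_
      congr 3
      push_cast
      module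
    · exact ((((Commute.refl (Lam ρ)).smul_left _).neg_left).smul_right _).neg_right

end Vale.Agent.H16.Thorp
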