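import Mathlib
import Vale.Agent.H16.Thorp.Defs
import Vale.Agent.H16.Thorp.Rep
import Vale.Agent.H16.Thorp.Pass
import Vale.Agent.H16.Thorp.Bridge
import Vale.Agent.H16.Thorp.Coord
import Vale.Agent.H16.Thorp.Level

/-! # P162, row R7: assembly -/

namespace Vale.Agent.H16.Thorp

open Equiv
open scoped RealInnerProductSpace

section general

variable {G : Type*} [Group G] [Fintype G] [DecidableEq G]

omit [DecidableEq G] in
/-- total variation distance from uniform does not increase under convolution -/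
theorem tv_conv_le (μ ν : G → ℝ) (h0 : ∀ g, 0 ≤ μ g) (h1 : ∑ g, μ g = 1) :
    tv (conv μ ν) (unif G) ≤ tv ν (unif G) := by
  unfold tv conv unif
  refine mul_le_mul_of_nonneg_left ?_ (by norm_num)
  have hpt : ∀ g : G, |∑ h : G, μ h * ν (h⁻¹ * g) - 1 / (Fintype.card G : ℝ)| ≤
      ∑ h : G, μ h * |ν (h⁻¹ * g) - 1 / (Fintype.card G : ℝ)| := by
    intro g
    have e1 : ∑ h : G, μ h * ν (h⁻¹ * g) - 1 / (Fintype.card G : ℝ) =
        ∑ h : G, μ h * (ν (h⁻¹ * g) - 1 / (Fintype.card G : ℝ)) := by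
      simp only [mul_sub, Finset.sum_sub_distrib, ← Finset.sum_mul, h1, one_mul]
    rw [e1]
    refine (Finset.abs_sum_le_sum_abs _ _).trans (le_of_eq ?_)
    refine Finset.sum_congr rfl fun h _ => ?_
    rw [abs_mul, abs_of_nonneg (h0 h)]
  calc ∑ g : G, |∑ h : G, μ h * ν (h⁻¹ * g) - 1 / (Fintype.card G : ℝ)|
      ≤ ∑ g : G, ∑ h : G, μ h * |ν (h⁻¹ * g) - 1 / (Fintype.card G : ℝ)| :=
        Finset.sum_le_sum fun g _ => hpt g
    _ = ∑ h : G, μ h * ∑ g : G, |ν (h⁻¹ * g) - 1 / (Fintype.card G : ℝ)| := by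
        rw [Finset.sum_comm]
        refine Finset.sum_congr rfl fun h _ => ?_
        rw [Finset.mul_sum]
    _ = ∑ h : G, μ h * ∑ g : G, |ν g - 1 / (Fintype.card G : ℝ)| := by
        refine Finset.sum_congr rfl fun h _ => ?_
        congr 1
        exact Equiv.sum_comp (Equiv.mulLeft h⁻¹) (fun g => |ν g - 1 / (Fintype.card G : ℝ)|)
    _ = ∑ g : G, |ν g - 1 / (Fintype.card G : ℝ)| := by
        rw [← Finset.sum_mul, h1, one_mul]

/-- total variation distance from uniform does not increase -/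
theorem tv_succ_le (μ : G → ℝ) (h0 : ∀ g, 0 ≤ μ g) (h1 : ∑ g, μ g = 1) (t : ℕ) :
    tv (convPow μ (t + 1)) (unif G) ≤ tv (convPow μ t) (unif G) :=
  tv_conv_le μ (convPow μ t) h0 h1

omit [Group G] [DecidableEq G] in
/-- Cauchy-Schwarz -/
theorem tv_le_l2 (f : G → ℝ) :
    (2 * tv f (unif G)) ^ 2 ≤ (Fintype.card G : ℝ) * ∑ g, (f g - 1 / (Fintype.card G : ℝ)) ^ 2 := by
  have h1 : 2 * tv f (unif G) = ∑ g : G, |f g - 1 / (Fintype.card G : ℝ)| := by
    unfold tv unif; ring
  rw [h1]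
  have h2 := sq_sum_le_card_mul_sum_sq (s := (Finset.univ : Finset G))
    (f := fun g => |f g - 1 / (Fintype.card G : ℝ)|)
  simpa [sq_abs, Finset.card_univ] using h2

end general

theorem thorpFun_injective (m : ℕ) (c : Fin m → Bool) : Function.Injective (thorpFun m c) := by
  intro p p' h
  have h := congrArg Fin.val h
  have hp := p.2
  have hp' := p'.2
  unfold thorpFun at h
  by_cases h1 : p.1 < m <;> by_cases h2 : p'.1 < m
  · rw [dif_pos h1, dif_pos h2] at h
    simp only at h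
    apply Fin.ext
    split_ifs at h <;> omega
  · exfalso
    rw [dif_pos h1, dif_neg h2] at h
    simp only at h
    by_cases hc : p.1 = p'.1 - m
    · have hc2 : c ⟨p.1, h1⟩ = c ⟨p'.1 - m, by omega⟩ := by congr 2
      rw [hc2] at h
      split_ifs at h <;> omega
    · split_ifs at h <;> omega
  · exfalso
    rw [dif_neg h1, dif_pos h2] at h
    simp only at h
    by_cases hc : p.1 - m = p'.1
    · have hc2 : c ⟨p.1 - m, by omega⟩ = c ⟨p'.1, h2⟩ := by congr 2
      rw [hc2] at h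
      split_ifs at h <;> omega
    · split_ifs at h <;> omega
  · rw [dif_neg h1, dif_neg h2] at h
    simp only at h
    apply Fin.ext
    split_ifs at h <;> omega

/-- the Thorp shuffle as a permutation -/
noncomputable def thorpPerm (m : ℕ) (c : Fin m → Bool) : Perm (Fin (2 * m)) :=
  Equiv.ofBijective (thorpFun m c) (Finite.injective_iff_bijective.1 (thorpFun_injective m c))

theorem thorpPerm_apply (m : ℕ) (c : Fin m → Bool) (p : Fin (2 * m)) :
    thorpPerm m c p = thorpFun m c p := rfl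

theorem q_eq (m : ℕ) (σ : Perm (Fin (2 * m))) :
    q m σ = (1 / 2 ^ m) * ∑ c : Fin m → Bool, if thorpPerm m c = σ then (1 : ℝ) else 0 := by
  unfold q
  rw [Finset.sum_boole, Fintype.card_subtype]
  have h : (Finset.univ.filter fun c : Fin m → Bool => ∀ p, σ p = thorpFun m c p) =
      Finset.univ.filter fun c : Fin m → Bool => thorpPerm m c = σ := by
    ext c
    simp only [Finset.mem_filter, Finset.mem_univ, true_and]
    constructor
    · intro h
      ext p
      rw [thorpPerm_apply, h p]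
    · rintro rfl p
      rfl
  rw [h]
  ring

theorem q_nonneg (m : ℕ) (σ) : 0 ≤ q m σ := by
  unfold q
  positivity

theorem q_sum (m : ℕ) : ∑ σ, q m σ = 1 := by
  simp only [q_eq]
  rw [← Finset.mul_sum, Finset.sum_comm]
  simp only [Finset.sum_ite_eq, Finset.mem_univ, if_true]
  simp

theorem conv_q (m : ℕ) (ν : Perm (Fin (2 * m)) → ℝ) (g : Perm (Fin (2 * m))) :
    conv (q m) ν g = (1 / 2 ^ m) * ∑ c : Fin m → Bool, ν ((thorpPerm m c)⁻¹ * g) := by
  unfold conv
  simp only [q_eq]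
  simp only [mul_assoc, Finset.sum_mul]
  rw [← Finset.mul_sum, Finset.sum_comm]
  congr 1
  refine Finset.sum_congr rfl fun c _ => ?_
  simp

/-- centred vector of a function on the group -/
noncomputable def cvec {X : Type*} [Fintype X] [DecidableEq X] (ν : Perm X → ℝ) :
    EuclideanSpace ℝ (Perm X) :=
  WithLp.toLp 2 (fun h => ν h - 1 / (Fintype.card (Perm X) : ℝ))

theorem cvec_norm {X : Type*} [Fintype X] [DecidableEq X] (ν : Perm X → ℝ) :
    ‖cvec ν‖ ^ 2 = ∑ h, (ν h - 1 / (Fintype.card (Perm X) : ℝ)) ^ 2 := by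
  rw [EuclideanSpace.norm_sq_eq]
  refine Finset.sum_congr rfl fun h _ => ?_
  rw [Real.norm_eq_abs, sq_abs]
  rfl

theorem qop_reg_apply (d : ℕ) (u : EuclideanSpace ℝ (Perm (Cube (d + 1))))
    (h : Perm (Cube (d + 1))) :
    Qop d (reg (Cube (d + 1))) u h =
      (1 / (2 : ℝ) ^ (Fintype.card (Cube d))) * ∑ c : Cube d → Bool, u ((shuf d c)⁻¹ * h) := by
  unfold Qop
  simp only [_root_.smul_apply, FunLike.coe_sum, Finset.sum_apply,
    PiLp.smul_apply, smul_eq_mul]
  congr 1
  rw [WithLp.ofLp_sum, Finset.sum_apply]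
  rfl

theorem qop_iter (d m : ℕ) (hm : 2 * m = 2 ^ (d + 1))
    (e : Fin (2 * m) ≃ Cube (d + 1)) (f : (Fin m → Bool) ≃ (Cube d → Bool))
    (hef : ∀ c p, e (thorpFun m c p) = shuf d (f c) (e p)) (t : ℕ) :
    ((Qop d (reg (Cube (d + 1)))) ^ t) (delta0 1) =
      cvec (fun h => convPow (q m) t (e.permCongrHom.symm h)) := by
  have hcard : (2 : ℝ) ^ (Fintype.card (Cube d)) = 2 ^ m := by
    congr 1
    rw [card_cube]
    have : 2 * m = 2 * 2 ^ d := by rw [hm, pow_succ]; ring
    omega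
  have hperm : ∀ c, e.permCongrHom.symm (shuf d (f c)) = thorpPerm m c := by
    intro c
    rw [MulEquiv.symm_apply_eq]
    ext x
    have h1 := hef c (e.symm x)
    rw [Equiv.apply_symm_apply] at h1
    rw [← h1]
    rfl
  induction t with
  | zero =>
      rw [pow_zero, one_apply_eq_self]
      unfold delta0 cvec
      congr 1
      funext h
      congr 1
      simp only [convPow]
      by_cases hh : h = 1
      · rw [if_pos hh, if_pos (by rw [hh, map_one])]
      · rw [if_neg hh, if_neg]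
        intro h2
        apply hh
        have := congrArg e.permCongrHom h2
        rwa [MulEquiv.apply_symm_apply, map_one] at this
  | succ t ih =>
      have h1 : ((Qop d (reg (Cube (d + 1)))) ^ (t + 1)) (delta0 1) =
          Qop d (reg (Cube (d + 1))) (((Qop d (reg (Cube (d + 1)))) ^ t) (delta0 1)) := by
        rw [pow_succ']; rfl
      rw [h1, ih]
      ext h
      rw [qop_reg_apply]
      show _ = convPow (q m) (t + 1) (e.permCongrHom.symm h) -
        1 / (Fintype.card (Perm (Cube (d + 1))) : ℝ)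
      have h2 : convPow (q m) (t + 1) (e.permCongrHom.symm h) =
          (1 / 2 ^ m) * ∑ c : Fin m → Bool,
            convPow (q m) t ((thorpPerm m c)⁻¹ * e.permCongrHom.symm h) := conv_q m _ _
      rw [h2, hcard, ← Equiv.sum_comp f]
      have h3 : ∀ c, (cvec (fun h => convPow (q m) t (e.permCongrHom.symm h)))
          ((shuf d (f c))⁻¹ * h) = convPow (q m) t ((thorpPerm m c)⁻¹ * e.permCongrHom.symm h) -
            1 / (Fintype.card (Perm (Cube (d + 1))) : ℝ) := by
        intro c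
        show convPow (q m) t (e.permCongrHom.symm ((shuf d (f c))⁻¹ * h)) - _ = _
        rw [map_mul, map_inv, hperm]
      simp only [h3]
      rw [Finset.sum_sub_distrib, mul_sub]
      congr 1
      simp

/-- Row R7: mixing after `k` passes. -/
theorem tv_passes (d m : ℕ) (hm : 2 * m = 2 ^ (d + 1)) (k : ℕ)
    (hk : ((2 : ℝ) ^ (d + 1)) ^ 2 * Real.exp (-((k : ℝ) / 64)) ≤ 1 / 5) :
    tv (convPow (q m) (k * (d + 1))) (unif (Equiv.Perm (Fin (2 * m)))) ≤ 1 / 4 := by
  obtain ⟨e, f, hef⟩ := exists_coord d m hm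
  obtain ⟨g, hg⟩ := qop_pow d (reg (Cube (d + 1)))
  have h1 := qop_iter d m hm e f hef (k * (d + 1))
  have h2 : (Qop d (reg (Cube (d + 1)))) ^ (k * (d + 1)) =
      (Theta (d + 1) (reg (Cube (d + 1))) * reg (Cube (d + 1)) g) ^ k := by
    rw [mul_comm, pow_mul, hg]
  rw [h2] at h1
  have h3 := theta_iter (d + 1) (reg (Cube (d + 1))) reg_iso g k (delta0 1)
  rw [h1, cvec_norm] at h3
  have h4 := level_bound (X := Cube (d + 1)) ((k : ℝ) / 32) (by positivity) (by
    rw [card_cube]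
    push_cast
    have : (k : ℝ) / 32 / 2 = (k : ℝ) / 64 := by ring
    rw [this]
    exact hk) 1
  have hcard : (Fintype.card (Perm (Fin (2 * m))) : ℝ) =
      (Fintype.card (Perm (Cube (d + 1))) : ℝ) := by
    exact_mod_cast Fintype.card_congr e.permCongr
  have h5 := tv_le_l2 (convPow (q m) (k * (d + 1)))
  rw [hcard] at h5
  have h6 : ∑ σ, (convPow (q m) (k * (d + 1)) σ -
      1 / (Fintype.card (Perm (Cube (d + 1))) : ℝ)) ^ 2 =
      ∑ h, (convPow (q m) (k * (d + 1)) (e.permCongrHom.symm h) -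
        1 / (Fintype.card (Perm (Cube (d + 1))) : ℝ)) ^ 2 :=
    (Equiv.sum_comp e.permCongrHom.symm.toEquiv (fun σ => (convPow (q m) (k * (d + 1)) σ -
      1 / (Fintype.card (Perm (Cube (d + 1))) : ℝ)) ^ 2)).symm
  rw [h6] at h5
  have h7 : (2 * tv (convPow (q m) (k * (d + 1))) (unif (Perm (Fin (2 * m))))) ^ 2 ≤ 1 / 4 := by
    refine h5.trans (le_trans ?_ h4)
    exact mul_le_mul_of_nonneg_left h3 (by positivity)
  nlinarith [h7]

theorem tv_mono (m : ℕ) {s t : ℕ} (hst : s ≤ t) :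
    tv (convPow (q m) t) (unif (Equiv.Perm (Fin (2 * m)))) ≤
      tv (convPow (q m) s) (unif (Equiv.Perm (Fin (2 * m)))) := by
  induction t, hst using Nat.le_induction with
  | base => exact le_rfl
  | succ t _ ih => exact (tv_succ_le (q m) (q_nonneg m) (q_sum m) t).trans ih

theorem main (d m : ℕ) (hm : 2 * m = 2 ^ (d + 1)) (t : ℕ) (ht : 200 * (d + 1) ^ 2 ≤ t) :
    tv (convPow (q m) t) (unif (Equiv.Perm (Fin (2 * m)))) ≤ 1 / 4 := by
  have h1 : (200 * (d + 1)) * (d + 1) ≤ t := by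
    calc (200 * (d + 1)) * (d + 1) = 200 * (d + 1) ^ 2 := by ring
      _ ≤ t := ht
  refine (tv_mono m h1).trans (tv_passes d m hm (200 * (d + 1)) ?_)
  have h2 : ((2 : ℝ) ^ (d + 1)) ^ 2 = (4 : ℝ) ^ (d + 1) := by
    rw [← pow_mul, mul_comm, pow_mul]; norm_num
  have h3 : Real.exp (-(((200 * (d + 1) : ℕ) : ℝ) / 64)) = (Real.exp (-(25 / 8))) ^ (d + 1) := by
    rw [← Real.exp_nat_mul]
    congr 1
    push_cast
    ring
  rw [h2, h3, ← mul_pow]
  have h4 : 4 * Real.exp (-(25 / 8)) ≤ 1 / 5 := by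
    have h5 : (20 : ℝ) ≤ Real.exp (25 / 8) := by
      have h6 : Real.exp 3 ≤ Real.exp (25 / 8) := Real.exp_le_exp.2 (by norm_num)
      have h7 : (20 : ℝ) ≤ Real.exp 3 := by
        have h8 := Real.exp_one_gt_d9
        have h9 : Real.exp 3 = Real.exp 1 ^ 3 := by
          rw [← Real.exp_nat_mul]; norm_num
        rw [h9]
        calc (20 : ℝ) ≤ 2.7182818283 ^ 3 := by norm_num
          _ ≤ Real.exp 1 ^ 3 := by gcongr
      linarith
    rw [Real.exp_neg]
    have h10 : (Real.exp (25 / 8))⁻¹ ≤ (20 : ℝ)⁻¹ := inv_anti₀ (by norm_num) h5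
    linarith
  have h11 : 0 ≤ 4 * Real.exp (-(25 / 8)) := by positivity
  calc (4 * Real.exp (-(25 / 8))) ^ (d + 1) ≤ (1 / 5 : ℝ) ^ (d + 1) := by gcongr
    _ ≤ 1 / 5 := by
        rw [pow_succ]
        have : (1 / 5 : ℝ) ^ d ≤ 1 := pow_le_one₀ (by norm_num) (by norm_num)
        linarith

end Vale.Agent.H16.Thorp
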